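import Mathlib

/-!
# The measure-theoretic core of the three-marginal example
-/

set_option autoImplicit false

open MeasureTheory Set Filter Topology
open scoped ENNReal

namespace Crest.Agent.MM

/-- The partner of an outer cluster. -/
def fl (j : Bool × Bool) : Bool × Bool := (j.1, !j.2)

@[simp] theorem fl_fl (j : Bool × Bool) : fl (fl j) = j := by simp [fl]

@[simp] theorem fl_fst (j : Bool × Bool) : (fl j).1 = j.1 := rfl

variable {E : Type*}

/-- The contact set. -/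
def Contact (S : Set E) (Y : Bool × Bool → E → E) (x y z : E) : Prop :=
  ∃ j, ∃ a ∈ S, (x = a ∧ y = Y j a ∧ z = Y (fl j) a) ∨ (x = Y j a ∧ y = a ∧ z = Y (fl j) a) ∨
    (x = Y j a ∧ y = Y (fl j) a ∧ z = a)

theorem Contact.swap12 {S : Set E} {Y : Bool × Bool → E → E} {x y z : E} (h : Contact S Y x y z) :
    Contact S Y y x z := by
  obtain ⟨j, a, ha, h | h | h⟩ := h
  · exact ⟨j, a, ha, Or.inr (Or.inl ⟨h.2.1, h.1, h.2.2⟩)⟩
  · exact ⟨j, a, ha, Or.inl ⟨h.2.1, h.1, h.2.2⟩⟩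
  · exact ⟨fl j, a, ha, Or.inr (Or.inr ⟨h.2.1, by rw [fl_fl]; exact h.1, h.2.2⟩)⟩

theorem Contact.swap23 {S : Set E} {Y : Bool × Bool → E → E} {x y z : E} (h : Contact S Y x y z) :
    Contact S Y x z y := by
  obtain ⟨j, a, ha, h | h | h⟩ := h
  · exact ⟨fl j, a, ha, Or.inl ⟨h.1, h.2.2, by rw [fl_fl]; exact h.2.1⟩⟩
  · exact ⟨j, a, ha, Or.inr (Or.inr ⟨h.1, h.2.2, h.2.1⟩)⟩
  · exact ⟨j, a, ha, Or.inr (Or.inl ⟨h.1, h.2.2, h.2.1⟩)⟩

/-- The common marginal. -/
noncomputable def tot [MeasurableSpace E] (m : Measure E) (Y : Bool × Bool → E → E) : Measure E :=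
  m + (2⁻¹ : ℝ≥0∞) • ∑ j, m.map (Y j)

theorem map_sum' [MeasurableSpace E] {F J : Type*} [MeasurableSpace F] [Fintype J]
    (ν : J → Measure E) {f : E → F} (hf : Measurable f) :
    (∑ j, ν j).map f = ∑ j, (ν j).map f := by
  rw [← Measure.mapₗ_apply_of_measurable hf, map_sum]
  simp only [Measure.mapₗ_apply_of_measurable hf]

theorem half_add_half [MeasurableSpace E] (ν : Measure E) :
    (2⁻¹ : ℝ≥0∞) • ν + (2⁻¹ : ℝ≥0∞) • ν = ν := by
  rw [← add_smul, ENNReal.inv_two_add_inv_two, one_smul]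

theorem abstract_main [PseudoMetricSpace E] [MeasurableSpace E] [MeasurableEq E]
    (c : E × E × E → ℝ≥0∞) (hc : Measurable c) (hc1 : ∀ x y z, c (y, x, z) = c (x, y, z))
    (hc2 : ∀ x y z, c (x, z, y) = c (x, y, z))
    (m : Measure E) [IsFiniteMeasure m] (hm0 : m ≠ 0) {S : Set E} (hS : MeasurableSet S)
    (hmS : ∀ᵐ x ∂m, x ∈ S) {Y : Bool × Bool → E → E} (hY : ∀ j, Measurable (Y j))
    {lab : E → Bool × Bool} (hlab : Measurable lab) {X : E → E} (hX : Measurable X)
    (hYS : ∀ j, ∀ a ∈ S, Y j a ∉ S) (hl : ∀ j, ∀ a ∈ S, lab (Y j a) = j)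
    (hXY : ∀ j, ∀ a ∈ S, X (Y j a) = a) {Ψ : E → ℝ≥0∞} (hΨ : Measurable Ψ) {B : ℝ≥0∞}
    (hB : B ≠ ⊤) (hΨB : ∀ y, (y ∈ S ∨ ∃ j, ∃ a ∈ S, y = Y j a) → Ψ y ≤ B)
    (H1 : ∀ x y z, (x ∈ S ∨ ∃ j, ∃ a ∈ S, x = Y j a) → (y ∈ S ∨ ∃ j, ∃ a ∈ S, y = Y j a) →
      (z ∈ S ∨ ∃ j, ∃ a ∈ S, z = Y j a) → Ψ x + Ψ y + Ψ z < c (x, y, z) ∨ Contact S Y x y z)
    (H2 : ∀ j, ∀ a ∈ S, c (a, Y j a, Y (fl j) a) = Ψ a + Ψ (Y j a) + Ψ (Y (fl j) a))
    {L : ℝ} (hL : 0 ≤ L) (H3 : ∀ j, ∀ a ∈ S, ∀ x ∈ S, c (x, Y j a, Y (fl j) a) ≤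
      Ψ x + Ψ (Y j a) + Ψ (Y (fl j) a) + ENNReal.ofReal (L * dist a x))
    (hsp : ∀ δ : ℝ, 0 < δ → ∃ R : E → E, Measurable R ∧ ∃ W : Set E, MeasurableSet W ∧
      (m.restrict W).map R = (2⁻¹ : ℝ≥0∞) • m ∧ (m.restrict Wᶜ).map R = (2⁻¹ : ℝ≥0∞) • m ∧
      ∀ᵐ x ∂m, dist (R x) x ≤ δ) :
    ∃ π₀ : Measure (E × E × E), (π₀.map (fun p => p.1) = tot m Y ∧
      π₀.map (fun p => p.2.1) = tot m Y ∧ π₀.map (fun p => p.2.2) = tot m Y) ∧
      ∫⁻ p, c p ∂π₀ < ⊤ ∧
      (∀ π : Measure (E × E × E), (π.map (fun p => p.1) = tot m Y ∧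
        π.map (fun p => p.2.1) = tot m Y ∧ π.map (fun p => p.2.2) = tot m Y) →
        ∫⁻ p, c p ∂π₀ ≤ ∫⁻ p, c p ∂π) ∧
      (∀ T₂ T₃ : E → E, Measurable T₂ → Measurable T₃ → (tot m Y).map T₂ = tot m Y →
        (tot m Y).map T₃ = tot m Y → ∫⁻ p, c p ∂π₀ < ∫⁻ x, c (x, T₂ x, T₃ x) ∂(tot m Y)) ∧
      (∀ ε : ℝ≥0∞, 0 < ε → ∃ T₂ T₃ : E → E, Measurable T₂ ∧ Measurable T₃ ∧
        (tot m Y).map T₂ = tot m Y ∧ (tot m Y).map T₃ = tot m Y ∧
        ∫⁻ x, c (x, T₂ x, T₃ x) ∂(tot m Y) < ∫⁻ p, c p ∂π₀ + ε) := by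
  classical
  set μ := tot m Y with hμ
  have hμf : IsFiniteMeasure μ := by
    refine ⟨?_⟩
    rw [hμ, tot, Measure.add_apply, Measure.smul_apply, Measure.finsetSum_apply, smul_eq_mul]
    refine ENNReal.add_lt_top.2 ⟨measure_lt_top _ _, ENNReal.mul_lt_top (by simp) ?_⟩
    exact ENNReal.sum_lt_top.2 fun j _ => measure_lt_top _ _
  have hYl : Measurable fun y => Y (lab y) (X y) := by
    have : Measurable fun p : E × (Bool × Bool) => Y p.2 (X p.1) :=
      measurable_from_prod_countable_left fun j => (hY j).comp hX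
    exact this.comp (measurable_id.prodMk hlab)
  have hYf : Measurable fun y => Y (fl (lab y)) (X y) := by
    have : Measurable fun p : E × (Bool × Bool) => Y (fl p.2) (X p.1) :=
      measurable_from_prod_countable_left fun j => (hY (fl j)).comp hX
    exact this.comp (measurable_id.prodMk hlab)
  -- a.e. statements for `μ`
  have hae : ∀ {P : E → Prop}, MeasurableSet {y | P y} → (∀ᵐ x ∂m, P x) →
      (∀ j, ∀ a ∈ S, P (Y j a)) → ∀ᵐ y ∂μ, P y := by
    intro P hP h1 h2
    rw [hμ, tot, ae_add_measure_iff]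
    refine ⟨h1, Measure.ae_smul_measure ?_ _⟩
    rw [ae_finsetSum_measure_iff]
    intro j _
    rw [ae_map_iff (hY j).aemeasurable hP]
    filter_upwards [hmS] with a ha using h2 j a ha
  have hT : ∀ᵐ y ∂μ, (y ∈ S ∨ ∃ j, ∃ a ∈ S, y = Y j a) := by
    have : ∀ᵐ y ∂μ, (y ∈ S ∨ (X y ∈ S ∧ y = Y (lab y) (X y))) := by
      refine hae (hS.union ((hX hS).inter (measurableSet_eq_fun measurable_id hYl)))
        (hmS.mono fun x hx => Or.inl hx) fun j a ha => Or.inr ?_
      rw [hXY j a ha, hl j a ha]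
      exact ⟨ha, rfl⟩
    filter_upwards [this] with y hy
    exact hy.imp id fun h => ⟨_, _, h.1, h.2⟩
  have hres : ∀ {A : Set E}, MeasurableSet A → A ⊆ S → μ A = m A := by
    intro A hA hAS
    rw [hμ, tot, Measure.add_apply, Measure.smul_apply, Measure.finsetSum_apply,
      Finset.sum_eq_zero, smul_zero, add_zero]
    intro j _
    rw [Measure.map_apply (hY j) hA, measure_eq_zero_iff_ae_notMem]
    filter_upwards [hmS] with a ha h using hYS j a ha (hAS h)
  set G : E × E × E → ℝ≥0∞ := fun p => Ψ p.1 + Ψ p.2.1 + Ψ p.2.2 with hG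
  have hGm : Measurable G := by fun_prop
  set V := ∫⁻ y, Ψ y ∂μ with hV
  have hVf : V < ⊤ := by
    refine (lintegral_mono_ae (hT.mono hΨB)).trans_lt ?_
    rw [lintegral_const]
    exact ENNReal.mul_lt_top hB.lt_top (measure_lt_top _ _)
  have hVf3 : V + V + V < ⊤ := ENNReal.add_lt_top.2 ⟨ENNReal.add_lt_top.2 ⟨hVf, hVf⟩, hVf⟩
  have hint : ∀ {α : Type _} [MeasurableSpace α] (π : Measure α) (f₁ f₂ f₃ : α → E),
      Measurable f₁ → Measurable f₂ → Measurable f₃ → π.map f₁ = μ → π.map f₂ = μ →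
      π.map f₃ = μ → ∫⁻ p, G (f₁ p, f₂ p, f₃ p) ∂π = V + V + V := by
    intro α _ π f₁ f₂ f₃ h1 h2 h3 e1 e2 e3
    simp only [hG]
    rw [lintegral_add_left (by fun_prop), lintegral_add_left (by fun_prop),
      ← lintegral_map hΨ h1, ← lintegral_map hΨ h2, ← lintegral_map hΨ h3, e1, e2, e3]
  have hcon : ∀ x y z, Contact S Y x y z → c (x, y, z) = G (x, y, z) := by
    rintro x y z ⟨j, a, ha, ⟨rfl, rfl, rfl⟩ | ⟨rfl, rfl, rfl⟩ | ⟨rfl, rfl, rfl⟩⟩
    · exact H2 j _ ha
    · rw [hc1, H2 j _ ha]; simp only [hG]; ring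
    · rw [hc2, hc1, H2 j _ ha]; simp only [hG]; ring
  have hlow : ∀ {α : Type _} [MeasurableSpace α] (π : Measure α) (f₁ f₂ f₃ : α → E),
      Measurable f₁ → Measurable f₂ → Measurable f₃ → π.map f₁ = μ → π.map f₂ = μ →
      π.map f₃ = μ → ∀ᵐ p ∂π, G (f₁ p, f₂ p, f₃ p) < c (f₁ p, f₂ p, f₃ p) ∨
        Contact S Y (f₁ p) (f₂ p) (f₃ p) := by
    intro α _ π f₁ f₂ f₃ h1 h2 h3 e1 e2 e3
    filter_upwards [ae_of_ae_map h1.aemeasurable (e1 ▸ hT), ae_of_ae_map h2.aemeasurable (e2 ▸ hT),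
      ae_of_ae_map h3.aemeasurable (e3 ▸ hT)] with p a1 a2 a3 using H1 _ _ _ a1 a2 a3
  have hle : ∀ {x y z}, G (x, y, z) < c (x, y, z) ∨ Contact S Y x y z → G (x, y, z) ≤ c (x, y, z) :=
    fun h => h.elim le_of_lt fun h => (hcon _ _ _ h).ge
  set π₀ : Measure (E × E × E) := (2⁻¹ : ℝ≥0∞) • (2⁻¹ : ℝ≥0∞) • ∑ j : Bool × Bool,
    (m.map (fun a => (a, Y j a, Y (fl j) a)) + m.map (fun a => (Y j a, a, Y (fl j) a)) +
      m.map (fun a => (Y j a, Y (fl j) a, a))) with hπ₀
  have hmarg : ∀ f : E × E × E → E, Measurable f → π₀.map f = (2⁻¹ : ℝ≥0∞) • (2⁻¹ : ℝ≥0∞) •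
      ∑ j : Bool × Bool, (m.map (fun a => f (a, Y j a, Y (fl j) a)) +
        m.map (fun a => f (Y j a, a, Y (fl j) a)) + m.map (fun a => f (Y j a, Y (fl j) a, a))) := by
    intro f hf
    rw [hπ₀, Measure.map_smul, Measure.map_smul, map_sum' _ hf]
    congr 2
    refine Finset.sum_congr rfl fun j _ => ?_
    have := hY j
    have := hY (fl j)
    rw [Measure.map_add _ _ hf, Measure.map_add _ _ hf, Measure.map_map hf (by fun_prop),
      Measure.map_map hf (by fun_prop), Measure.map_map hf (by fun_prop)]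
    rfl
  have hfin : ∀ a b c d : Measure E, (2⁻¹ : ℝ≥0∞) • (2⁻¹ : ℝ≥0∞) •
      ((m + m + (m + m)) + ((a + b + (c + d)) + (a + b + (c + d)))) =
      m + (2⁻¹ : ℝ≥0∞) • (a + b + (c + d)) := by
    intro a b c d
    rw [smul_add, smul_add (2⁻¹ : ℝ≥0∞) (m + m), smul_add (2⁻¹ : ℝ≥0∞) (a + b + (c + d)),
      half_add_half, half_add_half, smul_add, smul_add (2⁻¹ : ℝ≥0∞) m, half_add_half]
  have hπ₁ : π₀.map (fun p => p.1) = μ := by
    rw [hmarg _ (by fun_prop), hμ, tot]
    simp only [Fintype.sum_prod_type, Fintype.sum_bool, Measure.map_id']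
    rw [← hfin]
    congr 2
    abel
  have hπ₂ : π₀.map (fun p => p.2.1) = μ := by
    rw [hmarg _ (by fun_prop), hμ, tot]
    simp only [Fintype.sum_prod_type, Fintype.sum_bool, Measure.map_id', fl, Bool.not_true,
      Bool.not_false]
    rw [← hfin]
    congr 2
    abel
  have hπ₃ : π₀.map (fun p => p.2.2) = μ := by
    rw [hmarg _ (by fun_prop), hμ, tot]
    simp only [Fintype.sum_prod_type, Fintype.sum_bool, Measure.map_id', fl, Bool.not_true,
      Bool.not_false]
    rw [← hfin]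
    congr 2
    abel
  have hval : ∫⁻ p, c p ∂π₀ = V + V + V := by
    rw [← hint π₀ _ _ _ (by fun_prop) (by fun_prop) (by fun_prop) hπ₁ hπ₂ hπ₃]
    refine lintegral_congr_ae ?_
    have hP : MeasurableSet {p | c p = G p} := measurableSet_eq_fun hc hGm
    change ∀ᵐ p ∂π₀, c p = G p
    refine Measure.ae_smul_measure (Measure.ae_smul_measure ?_ _) _
    rw [ae_finsetSum_measure_iff]
    intro j _
    have := hY j
    have := hY (fl j)
    rw [ae_add_measure_iff, ae_add_measure_iff, ae_map_iff (by fun_prop) hP,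
      ae_map_iff (by fun_prop) hP, ae_map_iff (by fun_prop) hP]
    refine ⟨⟨?_, ?_⟩, ?_⟩
    · filter_upwards [hmS] with a ha using hcon _ _ _ ⟨j, a, ha, Or.inl ⟨rfl, rfl, rfl⟩⟩
    · filter_upwards [hmS] with a ha using
        hcon _ _ _ ⟨j, a, ha, Or.inr (Or.inl ⟨rfl, rfl, rfl⟩)⟩
    · filter_upwards [hmS] with a ha using
        hcon _ _ _ ⟨j, a, ha, Or.inr (Or.inr ⟨rfl, rfl, rfl⟩)⟩
  refine ⟨π₀, ⟨hπ₁, hπ₂, hπ₃⟩, hval ▸ hVf3, fun π ⟨e1, e2, e3⟩ => ?_,
    fun T₂ T₃ h2 h3 e2 e3 => ?_, fun ε hε => ?_⟩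
  · rw [hval, ← hint π _ _ _ (by fun_prop) (by fun_prop) (by fun_prop) e1 e2 e3]
    refine lintegral_mono_ae ?_
    filter_upwards [hlow π _ _ _ (by fun_prop) (by fun_prop) (by fun_prop) e1 e2 e3] with p hp
    exact hle hp
  · by_contra hcontra
    rw [not_lt, hval, ← hint μ id T₂ T₃ measurable_id h2 h3 Measure.map_id e2 e3] at hcontra
    have hl1 := hlow μ id T₂ T₃ measurable_id h2 h3 Measure.map_id e2 e3
    have heq := ae_eq_of_ae_le_of_lintegral_le (hl1.mono fun x hx => hle hx)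
      (by rw [hint μ id T₂ T₃ measurable_id h2 h3 Measure.map_id e2 e3]; exact hVf3.ne)
      (Measurable.aemeasurable (by fun_prop)) hcontra
    have hK : ∀ᵐ x ∂μ, Contact S Y x (T₂ x) (T₃ x) := by
      filter_upwards [hl1, heq] with x h1 h2
      exact h1.resolve_left fun h => h.ne h2
    set S₁ : Set E := S ∩ {x | (lab (T₂ x)).1 = true} with hS₁
    have hS₁m : MeasurableSet S₁ :=
      hS.inter (measurableSet_eq_fun (by fun_prop) measurable_const)
    have key : ∀ D : Set E, MeasurableSet D → m D = m (D ∩ S₁) + m (D ∩ S₁) := by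
      intro D hD
      set N : Set E := Sᶜ ∩ {y | (lab y).1 = true} ∩ X ⁻¹' D with hN
      have hNm : MeasurableSet N :=
        (hS.compl.inter (measurableSet_eq_fun (by fun_prop) measurable_const)).inter (hX hD)
      have hNY : ∀ j, ∀ a ∈ S, Y j a ∈ N ↔ (j.1 = true ∧ a ∈ D) := by
        intro j a ha
        simp [hN, hYS j a ha, hl j a ha, hXY j a ha]
      have hNS : ∀ a ∈ S, a ∉ N := fun a ha h => h.1.1 ha
      have h1 : μ N = m D := by
        have a0 : m N = 0 := by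
          rw [measure_eq_zero_iff_ae_notMem]
          filter_upwards [hmS] with a ha using hNS a ha
        have a1 : ∀ b, m.map (Y (true, b)) N = m D := fun b => by
          rw [Measure.map_apply (hY _) hNm]
          refine measure_congr ?_
          filter_upwards [hmS] with a ha
          exact propext ((hNY (true, b) a ha).trans (and_iff_right rfl))
        have a2 : ∀ b, m.map (Y (false, b)) N = 0 := fun b => by
          rw [Measure.map_apply (hY _) hNm, measure_eq_zero_iff_ae_notMem]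
          filter_upwards [hmS] with a ha
          simpa using hNY (false, b) a ha
        rw [hμ, tot, Measure.add_apply, Measure.smul_apply, Measure.finsetSum_apply]
        simp only [Fintype.sum_prod_type, Fintype.sum_bool, a0, a1, a2, add_zero, zero_add,
          smul_eq_mul]
        rw [mul_add, ← add_mul, ENNReal.inv_two_add_inv_two, one_mul]
      have h4 : ∀ᵐ x ∂μ, N.indicator (1 : E → ℝ≥0∞) x + (T₂ ⁻¹' N).indicator 1 x +
          (T₃ ⁻¹' N).indicator 1 x = (D ∩ S₁).indicator 1 x + (D ∩ S₁).indicator 1 x +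
          (N.indicator 1 x + N.indicator 1 x) := by
        filter_upwards [hK] with x hx
        obtain ⟨j, a, ha, ⟨rfl, b2, b3⟩ | ⟨rfl, b2, b3⟩ | ⟨rfl, b2, b3⟩⟩ := hx
        · by_cases h : j.1 = true ∧ x ∈ D
          · simp [indicator, b2, b3, hNY _ _ ha, hNS _ ha, h, hS₁, ha, hl _ _ ha]
          · have h' : ¬ (x ∈ D ∧ j.1 = true) := fun h' => h h'.symm
            simp [indicator, b2, b3, hNY _ _ ha, hNS _ ha, h, h', hS₁, ha, hl _ _ ha]
        · by_cases h : j.1 = true ∧ a ∈ D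
          · simp [indicator, b2, b3, hNY _ _ ha, hNS _ ha, h, hS₁, hYS _ _ ha]
          · simp [indicator, b2, b3, hNY _ _ ha, hNS _ ha, h, hS₁, hYS _ _ ha]
        · by_cases h : j.1 = true ∧ a ∈ D
          · simp [indicator, b2, b3, hNY _ _ ha, hNS _ ha, h, hS₁, hYS _ _ ha]
          · simp [indicator, b2, b3, hNY _ _ ha, hNS _ ha, h, hS₁, hYS _ _ ha]
      have h5 := lintegral_congr_ae h4
      have m1 := (measurable_one (α := ℝ≥0∞)).indicator hNm
      have m2 := (measurable_one (α := ℝ≥0∞)).indicator (h2 hNm)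
      have m3 := (measurable_one (α := ℝ≥0∞)).indicator (hD.inter hS₁m)
      rw [lintegral_add_left (m1.fun_add m2), lintegral_add_left m1, lintegral_add_left (m3.fun_add m3),
        lintegral_add_left m3, lintegral_add_left m1, lintegral_indicator_one hNm,
        lintegral_indicator_one (h2 hNm), lintegral_indicator_one (h3 hNm),
        lintegral_indicator_one (hD.inter hS₁m), ← Measure.map_apply h2 hNm,
        ← Measure.map_apply h3 hNm, e2, e3, h1,
        hres (hD.inter hS₁m) fun x hx => hx.2.1, add_assoc] at h5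
      exact (ENNReal.add_left_inj (ENNReal.add_ne_top.2
        ⟨measure_ne_top _ _, measure_ne_top _ _⟩)).1 h5
    have k1 := key S₁ hS₁m
    rw [inter_self] at k1
    have k2 : m S₁ = 0 := by
      have : m S₁ + 0 = m S₁ + m S₁ := by rw [add_zero]; exact k1
      exact ((ENNReal.add_right_inj (measure_ne_top _ _)).1 this).symm
    have k3 := key univ MeasurableSet.univ
    rw [univ_inter, k2, add_zero] at k3
    exact hm0 (Measure.measure_univ_eq_zero.1 k3)
  · obtain ⟨δ, hδ, hδε⟩ : ∃ δ : ℝ, 0 < δ ∧ ENNReal.ofReal (L * δ) * μ univ < ε := by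
      have h1 : Tendsto (fun δ : ℝ => ENNReal.ofReal (L * δ) * μ univ) (𝓝[>] 0) (𝓝 0) := by
        have h2 : Tendsto (fun δ : ℝ => ENNReal.ofReal (L * δ)) (𝓝 0) (𝓝 0) := by
          have : Continuous fun δ : ℝ => ENNReal.ofReal (L * δ) :=
            ENNReal.continuous_ofReal.comp (by fun_prop)
          simpa using this.tendsto 0
        simpa using ENNReal.Tendsto.mul_const (h2.mono_left nhdsWithin_le_nhds)
          (Or.inr (measure_ne_top μ univ))
      obtain ⟨δ, h2, h3⟩ := ((h1.eventually (gt_mem_nhds hε)).and self_mem_nhdsWithin).exists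
      exact ⟨δ, h3, h2⟩
    obtain ⟨R, hR, W, hW, hW1, hW2, hRδ⟩ := hsp δ hδ
    have hRS : ∀ᵐ x ∂m, R x ∈ S := by
      rw [← Measure.restrict_add_restrict_compl (μ := m) hW, ae_add_measure_iff]
      exact ⟨ae_of_ae_map hR.aemeasurable (hW1 ▸ Measure.ae_smul_measure hmS _),
        ae_of_ae_map hR.aemeasurable (hW2 ▸ Measure.ae_smul_measure hmS _)⟩
    set T : Bool → E → E := fun b x => if x ∈ S then
      (if x ∈ W then Y (true, b) (R x) else Y (false, b) (R x)) else
      if (lab x).2 = b then Y (fl (lab x)) (X x) else X x with hTd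
    have hTm : ∀ b, Measurable (T b) := fun b =>
      Measurable.ite hS (Measurable.ite hW ((hY _).comp hR) ((hY _).comp hR))
        (Measurable.ite (measurableSet_eq_fun (by fun_prop) measurable_const) hYf hX)
    have hT1 : ∀ b, m.map (T b) =
        (2⁻¹ : ℝ≥0∞) • m.map (Y (true, b)) + (2⁻¹ : ℝ≥0∞) • m.map (Y (false, b)) := by
      intro b
      rw [← Measure.map_smul, ← Measure.map_smul]
      conv_lhs => rw [← Measure.restrict_add_restrict_compl (μ := m) hW]
      conv_rhs => arg 1; rw [← hW1]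
      conv_rhs => arg 2; rw [← hW2]
      rw [Measure.map_add _ _ (hTm b), Measure.map_map (hY _) hR, Measure.map_map (hY _) hR]
      congr 1
      · refine Measure.map_congr ?_
        filter_upwards [ae_restrict_of_ae hmS, ae_restrict_mem hW] with x h1 h2
        simp [hTd, h1, h2]
      · refine Measure.map_congr ?_
        filter_upwards [ae_restrict_of_ae hmS, ae_restrict_mem hW.compl] with x h1 h2
        have h2 : x ∉ W := h2
        simp [hTd, h1, h2]
    have hT2 : ∀ b j, (m.map (Y j)).map (T b) = if j.2 = b then m.map (Y (fl j)) else m := by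
      intro b j
      rw [Measure.map_map (hTm b) (hY j)]
      split_ifs with h
      · refine Measure.map_congr ?_
        filter_upwards [hmS] with a ha
        simp [hTd, hYS j a ha, hl j a ha, hXY j a ha, h]
      · conv_rhs => rw [← Measure.map_id (μ := m)]
        refine Measure.map_congr ?_
        filter_upwards [hmS] with a ha
        simp [hTd, hYS j a ha, hl j a ha, hXY j a ha, h]
    have hT3 : ∀ b, μ.map (T b) = μ := by
      intro b
      rw [hμ, tot, Measure.map_add _ _ (hTm b), Measure.map_smul, map_sum' _ (hTm b), hT1]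
      simp only [hT2, Fintype.sum_prod_type, Fintype.sum_bool, fl, Bool.not_true, Bool.not_false]
      conv_rhs => arg 1; rw [← half_add_half m]
      cases b <;> simp <;> abel
    refine ⟨T true, T false, hTm _, hTm _, hT3 _, hT3 _, ?_⟩
    have hb : ∀ᵐ x ∂μ, c (x, T true x, T false x) ≤
        G (x, T true x, T false x) + ENNReal.ofReal (L * δ) := by
      have := hTm true
      have := hTm false
      refine hae (measurableSet_le (by fun_prop) (by fun_prop)) ?_ fun j a ha => ?_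
      · filter_upwards [hmS, hRS, hRδ] with x h1 h2 h3
        have h4 : ∀ i, c (x, Y (i, true) (R x), Y (i, false) (R x)) ≤
            G (x, Y (i, true) (R x), Y (i, false) (R x)) + ENNReal.ofReal (L * δ) := fun i =>
          (H3 (i, true) _ h2 x h1).trans (add_le_add le_rfl
            (ENNReal.ofReal_le_ofReal (mul_le_mul_of_nonneg_left h3 hL)))
        by_cases h : x ∈ W <;> simp only [hTd, h1, h, if_true, if_false] <;> exact h4 _
      · refine le_add_right (hcon _ _ _ ⟨j, a, ha, Or.inr ?_⟩).le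
        obtain ⟨i, _ | _⟩ := j <;> simp [hTd, hYS _ a ha, hl _ a ha, hXY _ a ha]
    refine (lintegral_mono_ae hb).trans_lt ?_
    rw [lintegral_add_right _ measurable_const, lintegral_const,
      hint μ (fun x => x) _ _ measurable_id (hTm _) (hTm _) Measure.map_id (hT3 _) (hT3 _), hval]
    exact ENNReal.add_lt_add_left hVf3.ne hδε

end Crest.Agent.MM
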