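import Mathlib

/-!
# Local analysis for the three-marginal Riesz cost
-/

set_option autoImplicit false

open Set Filter Topology
open scoped RealInnerProductSpace ContDiff

namespace Crest.Agent.MM

theorem local_inverse {F : Type*} [NormedAddCommGroup F] [NormedSpace ℝ F] [FiniteDimensional ℝ F]
    {f : F → F} {a : F} (hf : ContDiffAt ℝ ω f a) (hi : Function.Injective (fderiv ℝ f a)) :
    ∃ g : F → F, ContDiffAt ℝ ω g (f a) ∧ (∀ᶠ x in 𝓝 a, g (f x) = x) ∧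
      ∀ᶠ y in 𝓝 (f a), f (g y) = y := by
  have : CompleteSpace F := FiniteDimensional.complete ℝ F
  let f' : F ≃L[ℝ] F := (LinearEquiv.ofInjectiveEndo (fderiv ℝ f a : F →ₗ[ℝ] F)
    hi).toContinuousLinearEquiv
  have hf' : HasFDerivAt f (f' : F →L[ℝ] F) a := by
    have : (f' : F →L[ℝ] F) = fderiv ℝ f a := by ext x; rfl
    rw [this]
    exact (hf.differentiableAt (by simp)).hasFDerivAt
  exact ⟨hf.localInverse hf' (by simp), hf.to_localInverse hf' (by simp),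
    (hf.hasStrictFDerivAt' hf' (by simp)).eventually_left_inverse,
    (hf.hasStrictFDerivAt' hf' (by simp)).eventually_right_inverse⟩

theorem taylor_bound {F : Type*} [NormedAddCommGroup F] [NormedSpace ℝ F] {f : F → ℝ} {a : F}
    (hf : ContDiffAt ℝ 2 f a) : ∃ K : ℝ, 0 ≤ K ∧ ∃ r : ℝ, 0 < r ∧ ∀ p ∈ Metric.ball a r,
      ∀ p' ∈ Metric.ball a r, |f p' - f p - fderiv ℝ f p (p' - p)| ≤ K * ‖p' - p‖ ^ 2 := by
  obtain ⟨K, t, ht, hK⟩ := (hf.fderiv_right (m := 1) (by norm_num)).exists_lipschitzOnWith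
  have h1 : ∀ᶠ x in 𝓝 a, DifferentiableAt ℝ f x :=
    (hf.eventually (by simp)).mono fun x hx => hx.differentiableAt (by simp)
  obtain ⟨r, hr, hb⟩ := Metric.eventually_nhds_iff_ball.1 (h1.and ht)
  refine ⟨K, K.2, r, hr, fun p hp p' hp' => ?_⟩
  have h := Convex.norm_image_sub_le_of_norm_fderiv_le' (𝕜 := ℝ) (f := f)
    (s := Metric.ball a r ∩ Metric.closedBall p ‖p' - p‖) (C := K * ‖p' - p‖) (φ := fderiv ℝ f p)
    (x := p) (y := p') (fun x hx => (hb x hx.1).1) (fun x hx => by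
      have := hK.dist_le_mul x (hb x hx.1).2 p (hb p hp).2
      rw [dist_eq_norm] at this
      exact this.trans (mul_le_mul_of_nonneg_left hx.2 K.2))
    ((convex_ball a r).inter (convex_closedBall _ _)) ⟨hp, Metric.mem_closedBall_self (norm_nonneg _)⟩
    ⟨hp', by rw [mem_closedBall_iff_norm]⟩
  rw [Real.norm_eq_abs] at h
  linarith

variable {E : Type*} [NormedAddCommGroup E] [InnerProductSpace ℝ E]

/-- The Riesz kernel. -/
noncomputable def phi (s : ℝ) (p : E) : ℝ := (‖p‖ ^ 2) ^ (-s / 2)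

/-- Its gradient. -/
noncomputable def gr (s : ℝ) (p : E) : E := (-s * (‖p‖ ^ 2) ^ (-s / 2 - 1)) • p

/-- Hessian at a unit vector. -/
noncomputable def hess (s : ℝ) (e : E) : E →L[ℝ] E :=
  (-s) • ContinuousLinearMap.id ℝ E + (s * (s + 2)) • (innerSL ℝ e).smulRight e

theorem hess_apply (s : ℝ) (e ξ : E) : hess s e ξ = (-s) • ξ + (s * (s + 2) * ⟪e, ξ⟫) • e := by
  simp [hess, smul_smul]

omit [InnerProductSpace ℝ E] in
theorem phi_neg (s : ℝ) (p : E) : phi s (-p) = phi s p := by simp [phi]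

theorem gr_neg (s : ℝ) (p : E) : gr s (-p) = -gr s p := by simp [gr]

theorem contDiffAt_phi (s : ℝ) {p : E} (hp : p ≠ 0) : ContDiffAt ℝ ω (phi s) p :=
  (contDiffAt_id.norm_sq ℝ).rpow_const_of_ne (by simpa using hp)

theorem contDiffAt_gr (s : ℝ) {p : E} (hp : p ≠ 0) : ContDiffAt ℝ ω (gr s) p :=
  (contDiffAt_const.mul ((contDiffAt_id.norm_sq ℝ).rpow_const_of_ne (by simpa using hp))).smul
    contDiffAt_id

theorem hasFDerivAt_phi (s : ℝ) {p : E} (hp : p ≠ 0) :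
    HasFDerivAt (phi s) (innerSL ℝ (gr s p)) p := by
  have h := (hasFDerivAt_id p).norm_sq.rpow_const (p := -s / 2) (Or.inl (by simpa using hp))
  refine HasFDerivAt.congr_fderiv h ?_
  ext ξ
  simp [gr]
  ring

theorem hasFDerivAt_gr (s : ℝ) {e : E} (he : ‖e‖ = 1) {t : ℝ} (ht : t ≠ 0) :
    HasFDerivAt (gr s) (((t ^ 2) ^ (-s / 2 - 1)) • hess s e) (t • e) := by
  have hn : ‖t • e‖ ^ 2 = t ^ 2 := by rw [norm_smul, he, mul_one, Real.norm_eq_abs, sq_abs]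
  have h := (((hasFDerivAt_id (t • e)).norm_sq.rpow_const (p := -s / 2 - 1)
    (Or.inl (by simp only [id, hn]; positivity))).const_mul (-s)).smul (hasFDerivAt_id (t • e))
  refine HasFDerivAt.congr_fderiv h ?_
  ext ξ
  have e1 : (t ^ 2) ^ (-s / 2 - 1) = (t ^ 2) ^ (-s / 2 - 1 - 1) * t ^ 2 := by
    rw [← Real.rpow_add_one (by positivity)]; congr 1; ring
  simp only [smul_apply, hess_apply, id, hn, add_apply,
    ContinuousLinearMap.id_apply, ContinuousLinearMap.smulRight_apply, smul_add, smul_smul,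
    ContinuousLinearMap.comp_apply, innerSL_apply_apply, inner_smul_left, smul_eq_mul, conj_trivial,
    nsmul_eq_mul]
  congr 1
  · congr 1; ring
  · congr 1; rw [e1]; push_cast; ring

theorem hess_injective {s : ℝ} (hs : 0 < s) {e : E} (he : ‖e‖ = 1) {ξ : E} (h : hess s e ξ = 0) :
    ξ = 0 := by
  rw [hess_apply] at h
  have h1 := congrArg (fun v => ⟪e, v⟫) h
  simp only [inner_add_right, inner_smul_right, real_inner_self_eq_norm_sq, he,
    inner_zero_right] at h1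
  have h2 : ⟪e, ξ⟫ = 0 := by
    have : s * (s + 1) * ⟪e, ξ⟫ = 0 := by linarith
    rcases mul_eq_zero.1 this with h | h
    · exact absurd h (by positivity)
    · exact h
  rw [h2, mul_zero, zero_smul, add_zero, smul_eq_zero] at h
  exact h.resolve_left (by linarith)

/-- The real-valued three-body cost. -/
noncomputable def cr (s : ℝ) (x y z : E) : ℝ := phi s (x - y) + phi s (x - z) + phi s (y - z)

theorem local_branch [FiniteDimensional ℝ E] {s : ℝ} (hs : 0 < s) {e : E} (he : ‖e‖ = 1) :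
    ∃ κ₀ : ℝ, ∀ κ, κ₀ ≤ κ → ∃ (Y Z : E → E) (ℓ : E), Y 0 = e ∧ Z 0 = -e ∧
      ContDiffAt ℝ ω Y 0 ∧ ContDiffAt ℝ ω Z 0 ∧
      Function.Injective (fderiv ℝ Y 0) ∧ Function.Injective (fderiv ℝ Z 0) ∧
      ∃ r : ℝ, 0 < r ∧ ∀ x ∈ Metric.ball (0 : E) r, ∀ x' ∈ Metric.ball (0 : E) r,
        ∀ z' ∈ Metric.ball (-e) r,
        cr s x (Y x) (Z x) + κ * ‖x‖ ^ 2 / 2 - ⟪ℓ, Z x + e⟫ + κ * ‖Z x + e‖ ^ 2 / 2 +
          (‖x' - x‖ ^ 2 + ‖z' - Z x‖ ^ 2) ≤
        cr s x' (Y x) z' + κ * ‖x'‖ ^ 2 / 2 - ⟪ℓ, z' + e⟫ + κ * ‖z' + e‖ ^ 2 / 2 := by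
  have he0 : e ≠ 0 := by rintro rfl; simp at he
  have he2 : e - -e ≠ 0 := by
    rw [sub_neg_eq_add, ← two_smul ℝ e]; exact smul_ne_zero two_ne_zero he0
  set p₀ : E × E × E := (0, e, -e) with hp₀
  set C : E × E × E → ℝ := fun p => cr s p.1 p.2.1 p.2.2 with hC
  have hCd : ContDiffAt ℝ 2 C p₀ := by
    refine ContDiffAt.of_le (n := ω) ?_ le_top
    refine (ContDiffAt.add ?_ ?_).add ?_
    · exact (contDiffAt_phi s (p := p₀.1 - p₀.2.1) (by simpa [hp₀] using he0)).comp p₀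
        (f := fun p : E × E × E => p.1 - p.2.1) (by fun_prop)
    · exact (contDiffAt_phi s (p := p₀.1 - p₀.2.2) (by simpa [hp₀] using he0)).comp p₀
        (f := fun p : E × E × E => p.1 - p.2.2) (by fun_prop)
    · exact (contDiffAt_phi s (p := p₀.2.1 - p₀.2.2) he2).comp p₀
        (f := fun p : E × E × E => p.2.1 - p.2.2) (by fun_prop)
  obtain ⟨K, hK0, r₁, hr₁, hK⟩ := taylor_bound hCd
  set H := hess s e with hH
  set τ : ℝ := (((-2 : ℝ)) ^ 2) ^ (-s / 2 - 1) with hτ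
  have hτ0 : 0 < τ := Real.rpow_pos_of_pos (by norm_num) _
  have hτ1 : τ ≤ 1 := Real.rpow_le_one_of_one_le_of_nonpos (by norm_num) (by linarith)
  refine ⟨2 * K + 2 + (3 * ‖H‖ + 1) / τ, fun κ hκ => ?_⟩
  have hκτ : 3 * ‖H‖ + 1 ≤ τ * κ := by
    have : (3 * ‖H‖ + 1) / τ ≤ κ := by linarith
    rw [div_le_iff₀ hτ0] at this; linarith
  have hκ0 : 0 < κ := by
    have : 0 ≤ (3 * ‖H‖ + 1) / τ := by positivity
    linarith
  have hκH : 3 * ‖H‖ + 1 ≤ κ := hκτ.trans (by nlinarith)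
  have hκK : 2 * K + 2 ≤ κ := by
    have : 0 ≤ (3 * ‖H‖ + 1) / τ := by positivity
    linarith
  set ℓ := gr s (-e - 0) + gr s (-e - e) with hℓ
  set F : E × E × E → E × E := fun p => (gr s (p.1 - p.2.1) + gr s (p.1 - p.2.2) + κ • p.1,
    gr s (p.2.2 - p.1) + gr s (p.2.2 - p.2.1) - ℓ + κ • (p.2.2 + e)) with hF
  have hF0 : F p₀ = 0 := by simp [hF, hp₀, hℓ, gr_neg]
  have hFc : ContDiffAt ℝ ω F p₀ := by
    refine ContDiffAt.prodMk ((ContDiffAt.add ?_ ?_).add (by fun_prop))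
      (((ContDiffAt.add ?_ ?_).sub contDiffAt_const).add (by fun_prop))
    · exact (contDiffAt_gr s (p := p₀.1 - p₀.2.1) (by simpa [hp₀] using he0)).comp p₀
        (f := fun p : E × E × E => p.1 - p.2.1) (by fun_prop)
    · exact (contDiffAt_gr s (p := p₀.1 - p₀.2.2) (by simpa [hp₀] using he0)).comp p₀
        (f := fun p : E × E × E => p.1 - p.2.2) (by fun_prop)
    · exact (contDiffAt_gr s (p := p₀.2.2 - p₀.1) (by simpa [hp₀] using he0)).comp p₀
        (f := fun p : E × E × E => p.2.2 - p.1) (by fun_prop)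
    · exact (contDiffAt_gr s (p := p₀.2.2 - p₀.2.1) (by
        rw [← neg_ne_zero, neg_sub]; exact he2)).comp p₀
        (f := fun p : E × E × E => p.2.2 - p.2.1) (by fun_prop)
  have g1 : HasFDerivAt (gr s) H (-e) := by
    simpa using hasFDerivAt_gr s he (t := -1) (by norm_num)
  have g2 : HasFDerivAt (gr s) H e := by
    simpa using hasFDerivAt_gr s he (t := 1) (by norm_num)
  have g3 : HasFDerivAt (gr s) (τ • H) (-e - e) := by
    have := hasFDerivAt_gr s he (t := -2) (by norm_num)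
    rwa [show (-2 : ℝ) • e = -e - e by rw [neg_smul, two_smul]; abel] at this
  obtain ⟨F', hF', hF'v⟩ : ∃ F' : E × E × E →L[ℝ] E × E, HasFDerivAt F F' p₀ ∧ ∀ ξ η ζ,
      F' (ξ, η, ζ) = (H (ξ - η) + H (ξ - ζ) + κ • ξ, H (ζ - ξ) + τ • H (ζ - η) + κ • ζ) := by
    have d1 : HasFDerivAt (𝕜 := ℝ) (fun p : E × E × E => p.1) _ p₀ := hasFDerivAt_fst
    have d2 : HasFDerivAt (𝕜 := ℝ) (fun p : E × E × E => p.2.1) _ p₀ :=
      hasFDerivAt_fst.comp p₀ hasFDerivAt_snd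
    have d3 : HasFDerivAt (𝕜 := ℝ) (fun p : E × E × E => p.2.2) _ p₀ :=
      hasFDerivAt_snd.comp p₀ hasFDerivAt_snd
    have a1 := HasFDerivAt.comp p₀ (g := gr s) (by simpa [hp₀] using g1) (d1.sub d2)
    have a2 := HasFDerivAt.comp p₀ (g := gr s) (by simpa [hp₀] using g2) (d1.sub d3)
    have a3 := HasFDerivAt.comp p₀ (g := gr s) (by simpa [hp₀] using g1) (d3.sub d1)
    have a4 := HasFDerivAt.comp p₀ (g := gr s) (by simpa [hp₀] using g3) (d3.sub d2)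
    refine ⟨_, ((a1.add a2).add (d1.const_smul κ)).prodMk
      (((a3.add a4).sub_const ℓ).add ((d3.add_const e).const_smul κ)), fun ξ η ζ => ?_⟩
    simp [smul_sub]
  have hHb : ∀ v, ‖H v‖ ≤ ‖H‖ * ‖v‖ := H.le_opNorm
  have small : ∀ {c : ℝ} {v w : E}, 3 * ‖H‖ + 1 ≤ c → c • v = w → ‖w‖ ≤ 3 * ‖H‖ * ‖v‖ → v = 0 := by
    intro c v w hc h hw
    have hc0 : 0 < c := lt_of_lt_of_le (by positivity) hc
    rw [← h, norm_smul, Real.norm_of_nonneg hc0.le] at hw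
    have : ‖v‖ ≤ 0 := by nlinarith [norm_nonneg v]
    exact norm_le_zero_iff.1 this
  have hH0 : 0 ≤ ‖H‖ := norm_nonneg _
  have ker1 : ∀ η ζ, F' (0, η, ζ) = 0 → η = 0 ∧ ζ = 0 := by
    intro η ζ h
    rw [hF'v, Prod.mk_eq_zero] at h
    obtain ⟨h1, h2⟩ := h
    have h3 : η = -ζ := by
      rw [smul_zero, add_zero, ← map_add] at h1
      have := hess_injective hs he h1
      rw [← sub_eq_zero, ← neg_eq_zero, ← this]; abel
    subst h3
    have : ζ = 0 := small hκH (w := -((1 + 2 * τ) • H ζ)) (by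
      rw [eq_neg_iff_add_eq_zero, ← h2]
      simp only [sub_zero, sub_neg_eq_add, map_add]
      module) (by
      rw [norm_neg, norm_smul, Real.norm_of_nonneg (by positivity)]
      nlinarith [hHb ζ, norm_nonneg (H ζ), norm_nonneg ζ])
    simp [this]
  have ker2 : ∀ ξ ζ, F' (ξ, 0, ζ) = 0 → ξ = 0 := by
    intro ξ ζ h
    rw [hF'v, Prod.mk_eq_zero] at h
    obtain ⟨h1, h2⟩ := h
    have b1 : κ * ‖ξ‖ ≤ ‖H‖ * (2 * ‖ξ‖ + ‖ζ‖) := by
      have : κ • ξ = H ζ - (2 : ℝ) • H ξ := by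
        rw [← sub_eq_zero, ← h1]; simp only [sub_zero, map_sub]; module
      rw [← Real.norm_of_nonneg hκ0.le, ← norm_smul, this]
      refine (norm_sub_le _ _).trans ?_
      rw [norm_smul, Real.norm_of_nonneg zero_le_two]
      nlinarith [hHb ζ, hHb ξ]
    have b2 : κ * ‖ζ‖ ≤ ‖H‖ * (‖ξ‖ + 2 * ‖ζ‖) := by
      have : κ • ζ = H ξ - (1 + τ) • H ζ := by
        rw [← sub_eq_zero, ← h2]; simp only [sub_zero, map_sub]; module
      rw [← Real.norm_of_nonneg hκ0.le, ← norm_smul, this]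
      refine (norm_sub_le _ _).trans ?_
      rw [norm_smul, Real.norm_of_nonneg (by positivity)]
      nlinarith [hHb ζ, hHb ξ, norm_nonneg (H ζ)]
    have : ‖ξ‖ ≤ 0 := by nlinarith [norm_nonneg ξ, norm_nonneg ζ]
    exact norm_le_zero_iff.1 this
  have ker3 : ∀ ξ η, F' (ξ, η, 0) = 0 → ξ = 0 := by
    intro ξ η h
    rw [hF'v, Prod.mk_eq_zero] at h
    obtain ⟨h1, h2⟩ := h
    have h3 : ξ = -(τ • η) := by
      rw [smul_zero, add_zero, ← map_smul, ← map_add] at h2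
      have := hess_injective hs he h2
      rw [← sub_eq_zero, ← neg_eq_zero, ← this]; module
    subst h3
    have : η = 0 := small hκτ (w := -((1 + 2 * τ) • H η)) (by
      rw [eq_neg_iff_add_eq_zero, ← neg_eq_zero, ← h1]
      simp only [sub_zero, map_sub, map_neg, map_smul]
      module) (by
      rw [norm_neg, norm_smul, Real.norm_of_nonneg (by positivity)]
      nlinarith [hHb η, norm_nonneg (H η), norm_nonneg η])
    simp [this]
  set G : E × E × E → E × E × E := fun p => (p.1, F p) with hG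
  have hG0 : G p₀ = 0 := by simp only [hG, hF0]; rfl
  have hGc : ContDiffAt ℝ ω G p₀ := contDiffAt_fst.prodMk hFc
  have hGi : Function.Injective (fderiv ℝ G p₀) := by
    rw [(hasFDerivAt_fst.prodMk hF').fderiv, injective_iff_map_eq_zero]
    rintro ⟨ξ, η, ζ⟩ h
    simp only [ContinuousLinearMap.prod_apply, ContinuousLinearMap.coe_fst', Prod.mk_eq_zero] at h
    obtain ⟨rfl, h⟩ := h
    obtain ⟨rfl, rfl⟩ := ker1 η ζ h
    rfl
  obtain ⟨Γ, hΓc, hΓl, hΓr⟩ := local_inverse hGc hGi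
  have hΓ0 : Γ 0 = p₀ := by rw [← hG0]; exact hΓl.self_of_nhds
  rw [hG0] at hΓc hΓr
  set P : E → E × E × E := fun x => Γ (x, 0) with hP
  have hι : ContDiffAt ℝ ω (fun x : E => ((x, 0) : E × E × E)) 0 := by fun_prop
  have hPc : ContDiffAt ℝ ω P 0 := ContDiffAt.comp 0 (g := Γ) hΓc hι
  have hP0 : P 0 = p₀ := hΓ0
  have hPG : ∀ᶠ x in 𝓝 (0 : E), (P x).1 = x ∧ F (P x) = 0 := by
    have : Tendsto (fun x : E => ((x, 0) : E × E × E)) (𝓝 0) (𝓝 0) := hι.continuousAt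
    filter_upwards [this.eventually hΓr] with x hx
    exact ⟨congrArg Prod.fst hx, congrArg Prod.snd hx⟩
  have hP' := (hPc.differentiableAt (by simp)).hasFDerivAt
  set P' := fderiv ℝ P 0
  have hP1 : ∀ ξ, (P' ξ).1 = ξ := fun ξ => by
    have h1 := (hP'.fst).unique ((hasFDerivAt_id (0 : E)).congr_of_eventuallyEq
      (hPG.mono fun x hx => hx.1))
    exact congrArg (fun L : E →L[ℝ] E => L ξ) h1
  have hP2 : ∀ ξ, F' (ξ, (P' ξ).2.1, (P' ξ).2.2) = 0 := fun ξ => by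
    have h0 : HasFDerivAt (F ∘ P) (F'.comp P') 0 := HasFDerivAt.comp 0 (by rw [hP0]; exact hF') hP'
    have h1 := h0.unique
      ((hasFDerivAt_const (0 : E × E) (0 : E)).congr_of_eventuallyEq (hPG.mono fun x hx => hx.2))
    have h2 : F' (P' ξ) = 0 := congrArg (fun L : E →L[ℝ] E × E => L ξ) h1
    rw [← h2]
    congr 1
    exact Prod.ext (hP1 ξ).symm rfl
  refine ⟨fun x => (P x).2.1, fun x => (P x).2.2, ℓ, by simp [hP0, hp₀], by simp [hP0, hp₀],
    hPc.snd.fst, hPc.snd.snd, ?_, ?_, ?_⟩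
  · rw [hP'.snd.fst.fderiv, injective_iff_map_eq_zero]
    intro ξ h
    have h' : (P' ξ).2.1 = 0 := h
    exact ker2 ξ _ (h' ▸ hP2 ξ)
  · rw [hP'.snd.snd.fderiv, injective_iff_map_eq_zero]
    intro ξ h
    have h' : (P' ξ).2.2 = 0 := h
    exact ker3 ξ _ (h' ▸ hP2 ξ)
  have hPb : ∀ᶠ x in 𝓝 (0 : E), P x ∈ Metric.ball p₀ (min r₁ (1 / 2)) :=
    hPc.continuousAt.eventually (hP0 ▸ Metric.ball_mem_nhds p₀ (by positivity))
  obtain ⟨r₂, hr₂, hb⟩ := Metric.eventually_nhds_iff_ball.1 (hPG.and hPb)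
  refine ⟨min r₁ r₂, lt_min hr₁ hr₂, fun x hx x' hx' z' hz' => ?_⟩
  obtain ⟨⟨h1, h2⟩, h3⟩ := hb x (Metric.ball_subset_ball (min_le_right _ _) hx)
  beta_reduce
  generalize P x = p at h1 h2 h3 ⊢
  obtain ⟨x₁, y, z⟩ := p
  simp only at h1 ⊢
  subst h1
  rw [Metric.mem_ball, Prod.dist_eq, Prod.dist_eq, max_lt_iff, max_lt_iff, lt_min_iff, lt_min_iff,
    lt_min_iff] at h3
  obtain ⟨⟨a1, a2⟩, ⟨a3, a4⟩, a5, a6⟩ := h3
  simp only [hp₀, dist_eq_norm, sub_zero, sub_neg_eq_add] at a1 a2 a3 a4 a5 a6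
  have n1 : x₁ - y ≠ 0 := by
    intro h
    rw [← sub_eq_zero.1 h] at a4
    have := norm_sub_norm_le e x₁
    rw [norm_sub_rev] at this
    linarith
  have n2 : x₁ - z ≠ 0 := by
    intro h
    rw [← sub_eq_zero.1 h] at a6
    have := norm_sub_le (x₁ + e) x₁
    rw [add_sub_cancel_left] at this
    linarith
  have n3 : y - z ≠ 0 := by
    intro h
    rw [← sub_eq_zero.1 h] at a6
    have := norm_sub_le (y + e) (y - e)
    rw [show y + e - (y - e) = (2 : ℝ) • e by module, norm_smul, he] at this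
    norm_num at this
    linarith
  have hT := hK (x₁, y, z) (by
      rw [Metric.mem_ball, Prod.dist_eq, Prod.dist_eq, max_lt_iff, max_lt_iff]
      simp only [hp₀, dist_eq_norm, sub_zero, sub_neg_eq_add]
      exact ⟨a1, a3, a5⟩) (x', y, z') (by
      rw [Metric.mem_ball, Prod.dist_eq, Prod.dist_eq, max_lt_iff, max_lt_iff]
      refine ⟨lt_of_lt_of_le hx' (min_le_left _ _), ?_, lt_of_lt_of_le hz' (min_le_left _ _)⟩
      simpa only [hp₀, dist_eq_norm] using a3)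
  have hD : fderiv ℝ C (x₁, y, z) ((x', y, z') - (x₁, y, z)) =
      ⟪gr s (x₁ - y) + gr s (x₁ - z), x' - x₁⟫ + ⟪gr s (z - x₁) + gr s (z - y), z' - z⟫ := by
    have d1 : HasFDerivAt (𝕜 := ℝ) (fun p : E × E × E => p.1) _ (x₁, y, z) := hasFDerivAt_fst
    have d2 : HasFDerivAt (𝕜 := ℝ) (fun p : E × E × E => p.2.1) _ (x₁, y, z) :=
      hasFDerivAt_fst.comp _ hasFDerivAt_snd
    have d3 : HasFDerivAt (𝕜 := ℝ) (fun p : E × E × E => p.2.2) _ (x₁, y, z) :=
      hasFDerivAt_snd.comp _ hasFDerivAt_snd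
    have b1 := HasFDerivAt.comp (x₁, y, z) (g := phi s) (hasFDerivAt_phi s n1) (d1.sub d2)
    have b2 := HasFDerivAt.comp (x₁, y, z) (g := phi s) (hasFDerivAt_phi s n2) (d1.sub d3)
    have b3 := HasFDerivAt.comp (x₁, y, z) (g := phi s) (hasFDerivAt_phi s n3) (d2.sub d3)
    have b4 : HasFDerivAt C _ (x₁, y, z) := (b1.add b2).add b3
    rw [b4.fderiv, ← neg_sub x₁ z, ← neg_sub y z, gr_neg, gr_neg]
    simp [inner_add_left, inner_sub_right]
    ring
  rw [Prod.mk_eq_zero] at h2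
  have e1 : gr s (x₁ - y) + gr s (x₁ - z) = -(κ • x₁) := eq_neg_of_add_eq_zero_left h2.1
  have e2 : gr s (z - x₁) + gr s (z - y) = ℓ - κ • (z + e) := by
    rw [← sub_eq_zero, ← h2.2]; abel
  rw [hD, e1, e2] at hT
  have hn : ‖((x', y, z') : E × E × E) - (x₁, y, z)‖ ^ 2 ≤ ‖x' - x₁‖ ^ 2 + ‖z' - z‖ ^ 2 := by
    simp only [Prod.mk_sub_mk, sub_self, Prod.norm_mk, norm_zero]
    rw [max_eq_right (norm_nonneg (z' - z))]
    rcases max_choice ‖x' - x₁‖ ‖z' - z‖ with h | h <;> rw [h] <;> nlinarith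
  have q1 : ‖x'‖ ^ 2 = ‖x₁‖ ^ 2 + 2 * ⟪x₁, x' - x₁⟫ + ‖x' - x₁‖ ^ 2 := by
    rw [← norm_add_sq_real]; congr 2; abel
  have q2 : ‖z' + e‖ ^ 2 = ‖z + e‖ ^ 2 + 2 * ⟪z + e, z' - z⟫ + ‖z' - z‖ ^ 2 := by
    rw [← norm_add_sq_real]; congr 2; abel
  have q3 : ⟪ℓ, z' + e⟫ = ⟪ℓ, z + e⟫ + ⟪ℓ, z' - z⟫ := by
    rw [← inner_add_right]; congr 1; abel
  rw [inner_neg_left, inner_sub_left, inner_smul_left, inner_smul_left] at hT
  simp only [conj_trivial, hC] at hT
  rw [q1, q2, q3]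
  have h5 := (abs_le.1 hT).1
  have h6 := mul_le_mul_of_nonneg_left hn hK0
  have h7 := mul_le_mul_of_nonneg_right hκK
    (add_nonneg (sq_nonneg ‖x' - x₁‖) (sq_nonneg ‖z' - z‖))
  linarith

end Crest.Agent.MM
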