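import Mathlib
import Crest.Agent.MM.Local

/-!
# Pushing smooth densities through local diffeomorphisms
-/

set_option autoImplicit false

open MeasureTheory Set Filter Topology Function
open scoped ENNReal ContDiff

namespace Crest.Agent.MM

variable {E : Type*} [NormedAddCommGroup E] [NormedSpace ℝ E]

theorem contDiff_det [FiniteDimensional ℝ E] {n : WithTop ℕ∞} :
    ContDiff ℝ n fun f : E →L[ℝ] E => f.det := by
  classical
  let b := Module.finBasis ℝ E
  have : (fun f : E →L[ℝ] E => f.det) = fun f : E →L[ℝ] E =>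
      ∑ σ : Equiv.Perm (Fin (Module.finrank ℝ E)), ((Equiv.Perm.sign σ : ℤ) : ℝ) *
        ∏ i, LinearMap.toContinuousLinearMap (b.coord (σ i)) (f (b i)) := by
    funext f
    rw [ContinuousLinearMap.det, ← LinearMap.det_toMatrix b, Matrix.det_apply']
    simp [LinearMap.toMatrix_apply]
  rw [this]
  exact ContDiff.sum fun σ _ => contDiff_const.mul (contDiff_prod fun i _ => by fun_prop)

theorem eventually_closedBall {X : Type*} [PseudoMetricSpace X] {a : X} {P : X → Prop}
    (h : ∀ᶠ x in 𝓝 a, P x) : ∀ᶠ r in 𝓝[>] (0 : ℝ), ∀ x ∈ Metric.closedBall a r, P x :=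
  (eventually_closedBall_subset h).filter_mono nhdsWithin_le_nhds

variable [MeasurableSpace E] [BorelSpace E]

theorem exists_measurable_eventuallyEq {f : E → E} {a : E} (hf : ContDiffAt ℝ ω f a) :
    ∃ g : E → E, Measurable g ∧ g =ᶠ[𝓝 a] f := by
  classical
  obtain ⟨U, hU, hUo, haU⟩ := eventually_nhds_iff.1 (hf.eventually (by simp))
  refine ⟨U.piecewise f 0, ContinuousOn.measurable_piecewise
    (fun x hx => (hU x hx).continuousAt.continuousWithinAt) continuous_zero.continuousOn
    hUo.measurableSet, ?_⟩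
  filter_upwards [hUo.mem_nhds haU] with x hx using piecewise_eq_of_mem _ _ _ hx

theorem density_push [FiniteDimensional ℝ E] (μ : Measure E) [μ.IsAddHaarMeasure] {Y : E → E}
    (hYm : Measurable Y) (hY : ContDiffAt ℝ ω Y 0) (hi : Injective (fderiv ℝ Y 0)) :
    ∃ X : E → E, Measurable X ∧ ∀ᶠ r in 𝓝[>] (0 : ℝ), ContinuousOn Y (Metric.closedBall 0 r) ∧
      (∀ a ∈ Metric.closedBall (0 : E) r, X (Y a) = a) ∧ ∀ b : E → ℝ, ContDiff ℝ ∞ b →
      (∀ x, 0 ≤ b x) → support b ⊆ Metric.closedBall 0 r → ∃ σ : E → ℝ, ContDiff ℝ ∞ σ ∧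
        (∀ y, 0 ≤ σ y) ∧ support σ ⊆ Y '' Metric.closedBall 0 r ∧
        μ.withDensity (fun y => ENNReal.ofReal (σ y ^ 2)) =
          (2⁻¹ : ℝ≥0∞) • (μ.withDensity fun x => ENNReal.ofReal (b x ^ 2)).map Y := by
  obtain ⟨g, hg, hgl, hgr⟩ := local_inverse hY hi
  obtain ⟨X, hXm, hXg⟩ := exists_measurable_eventuallyEq hg
  have hX : ContDiffAt ℝ ω X (Y 0) := hg.congr_of_eventuallyEq hXg
  have hl : ∀ᶠ a in 𝓝 (0 : E), X (Y a) = a := by
    filter_upwards [hgl, hY.continuousAt.eventually hXg] with a h1 h2 using h2.trans h1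
  have hr : ∀ᶠ y in 𝓝 (Y 0), Y (X y) = y := by
    filter_upwards [hgr, hXg] with y h1 h2 using h2 ▸ h1
  have hdet : (fderiv ℝ X (Y 0)).det ≠ 0 := by
    have h1 := ((hX.differentiableAt (by simp)).hasFDerivAt.comp 0
      (hY.differentiableAt (by simp)).hasFDerivAt).unique
      ((hasFDerivAt_id (0 : E)).congr_of_eventuallyEq hl)
    have h2 := congrArg ContinuousLinearMap.det h1
    rw [ContinuousLinearMap.det, ContinuousLinearMap.toLinearMap_comp, LinearMap.det_comp] at h2
    intro h
    rw [ContinuousLinearMap.det] at h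
    simp [h, ContinuousLinearMap.det] at h2
  have hdet' : ∀ᶠ y in 𝓝 (Y 0), (fderiv ℝ X y).det ≠ 0 :=
    (ContinuousLinearMap.continuous_det.continuousAt.comp
      (hX.fderiv_right (m := 0) (by simp)).continuousAt).eventually_ne hdet
  obtain ⟨V, hV, hVo, hqV⟩ := eventually_nhds_iff.1 ((hX.eventually (by simp)).and (hr.and hdet'))
  refine ⟨X, hXm, ?_⟩
  filter_upwards [eventually_closedBall ((hY.eventually (by simp)).and
    (hl.and (hY.continuousAt.eventually (hVo.mem_nhds hqV))))] with r hS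
  set S := Metric.closedBall (0 : E) r
  have hYc : ContinuousOn Y S := fun a ha => (hS a ha).1.continuousAt.continuousWithinAt
  refine ⟨hYc, fun a ha => (hS a ha).2.1, fun b hb hb0 hbS => ?_⟩
  set τ : E → ℝ := fun y => b (X y) * √(|(fderiv ℝ X y).det| / 2) with hτ
  have hsupp : support (V.indicator τ) ⊆ V ∩ X ⁻¹' S := by
    intro y hy
    rw [support_indicator] at hy
    exact ⟨hy.1, hbS (left_ne_zero_of_mul hy.2)⟩
  have hsupp' : support (V.indicator τ) ⊆ Y '' S := fun y hy =>
    ⟨X y, (hsupp hy).2, (hV y (hsupp hy).1).2.1⟩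
  refine ⟨V.indicator τ, contDiff_iff_contDiffAt.2 fun y => ?_,
    fun y => indicator_nonneg (fun y _ => mul_nonneg (hb0 _) (Real.sqrt_nonneg _)) y, hsupp', ?_⟩
  · by_cases hy : y ∈ V
    · have h1 : ContDiffAt ℝ ∞ τ y := by
        have h2 : ContDiffAt ℝ ∞ (fun y => (fderiv ℝ X y).det) y :=
          contDiff_det.contDiffAt.comp y ((hV y hy).1.fderiv_right (m := ∞) le_top)
        have h3 := (hV y hy).2.2
        exact (hb.contDiffAt.comp y ((hV y hy).1.of_le le_top)).mul
          (((h2.abs h3).div_const 2).sqrt (by positivity))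
      refine h1.congr_of_eventuallyEq ?_
      filter_upwards [hVo.mem_nhds hy] with z hz using indicator_of_mem hz _
    · have hK : IsClosed (Y '' S) :=
        ((isCompact_closedBall (0 : E) r).image_of_continuousOn hYc).isClosed
      have hyK : y ∉ Y '' S := by
        rintro ⟨a, ha, rfl⟩
        exact hy (hS a ha).2.2
      refine (contDiffAt_const (c := (0 : ℝ))).congr_of_eventuallyEq ?_
      filter_upwards [hK.isOpen_compl.mem_nhds hyK] with z hz
      exact notMem_support.1 fun h => hz (hsupp' h)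
  · ext A hA
    have hSm : MeasurableSet S := Metric.isClosed_closedBall.measurableSet
    have hs : MeasurableSet (V ∩ X ⁻¹' S ∩ A) := (hVo.measurableSet.inter (hXm hSm)).inter hA
    have him : X '' (V ∩ X ⁻¹' S ∩ A) = S ∩ Y ⁻¹' A := by
      ext x
      constructor
      · rintro ⟨y, ⟨⟨h1, h2⟩, h3⟩, rfl⟩
        exact ⟨h2, by rw [mem_preimage, (hV y h1).2.1]; exact h3⟩
      · rintro ⟨h1, h2⟩
        exact ⟨Y x, ⟨⟨(hS x h1).2.2, by rw [mem_preimage, (hS x h1).2.1]; exact h1⟩, h2⟩,
          (hS x h1).2.1⟩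
    have hcv := lintegral_image_eq_lintegral_abs_det_fderiv_mul μ hs (f := X)
      (f' := fun y => fderiv ℝ X y) (fun y hy =>
        ((hV y hy.1.1).1.differentiableAt (by simp)).hasFDerivAt.hasFDerivWithinAt)
      (fun y hy z hz h => by rw [← (hV y hy.1.1).2.1, h, (hV z hz.1.1).2.1])
      (fun x => ENNReal.ofReal (b x ^ 2))
    rw [withDensity_apply _ hA, Measure.smul_apply, Measure.map_apply hYm hA,
      withDensity_apply _ (hYm hA), smul_eq_mul,
      ← setLIntegral_eq_of_support_subset (μ := μ.restrict A) (s := V ∩ X ⁻¹' S) (fun y hy =>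
        hsupp fun h => hy (by simp [h])),
      ← setLIntegral_eq_of_support_subset (μ := μ.restrict (Y ⁻¹' A)) (s := S) (fun y hy =>
        hbS fun h => hy (by simp [h])), Measure.restrict_restrict hSm,
      Measure.restrict_restrict (hVo.measurableSet.inter (hXm hSm)), ← him, hcv,
      ← lintegral_const_mul' _ _ (by simp)]
    refine setLIntegral_congr_fun hs fun y hy => ?_
    simp only [indicator_of_mem hy.1.1, hτ]
    rw [mul_pow, Real.sq_sqrt (by positivity), ← ENNReal.ofReal_mul (abs_nonneg _),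
      show (2⁻¹ : ℝ≥0∞) = ENNReal.ofReal 2⁻¹ by rw [ENNReal.ofReal_inv_of_pos two_pos]; simp,
      ← ENNReal.ofReal_mul (by norm_num)]
    congr 1
    ring

end Crest.Agent.MM
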