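import Mathlib
import Crest.Prelude.Def_MultiMarginal
import Crest.Agent.MM.Density
import Crest.Agent.MM.Abstract

/-!
# The five clusters and their dual potentials
-/

set_option autoImplicit false

open MeasureTheory Set Filter Topology Function
open scoped ENNReal ContDiff RealInnerProductSpace
open Crest.AnalysisR.OT

namespace Crest.Agent.MM

section basic

variable {E : Type*} [NormedAddCommGroup E]

theorem phi_eq (s : ℝ) (p : E) : phi s p = ‖p‖ ^ (-s) := by
  rw [phi, ← Real.rpow_natCast, ← Real.rpow_mul (norm_nonneg _)]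
  congr 1
  push_cast
  ring

theorem phi_nonneg (s : ℝ) (p : E) : 0 ≤ phi s p := Real.rpow_nonneg (sq_nonneg _) _

theorem pairCost_eq (s : ℝ) {x y : E} (h : x ≠ y) :
    pairCost s x y = ENNReal.ofReal (phi s (x - y)) := by
  rw [pairCost, phi_eq, ENNReal.ofReal_rpow_of_pos (norm_pos_iff.2 (sub_ne_zero.2 h))]

theorem pairCost_self {s : ℝ} (hs : 0 < s) (x : E) : pairCost s x x = ⊤ := by
  simp [pairCost, hs]

theorem pairCost_comm (s : ℝ) (x y : E) : pairCost s x y = pairCost s y x := by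
  rw [pairCost, pairCost, norm_sub_rev]

theorem tripleCost_swap12 (s : ℝ) (x y z : E) : tripleCost s (y, x, z) = tripleCost s (x, y, z) := by
  simp only [tripleCost, pairCost_comm s y x]
  ring

theorem tripleCost_swap23 (s : ℝ) (x y z : E) : tripleCost s (x, z, y) = tripleCost s (x, y, z) := by
  simp only [tripleCost, pairCost_comm s z y]
  ring

theorem tripleCost_eq (s : ℝ) {x y z : E} (h1 : x ≠ y) (h2 : x ≠ z) (h3 : y ≠ z) :
    tripleCost s (x, y, z) = ENNReal.ofReal (cr s x y z) := by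
  simp only [tripleCost, cr]
  rw [pairCost_eq s h1, pairCost_eq s h2, pairCost_eq s h3,
    ENNReal.ofReal_add (add_nonneg (phi_nonneg _ _) (phi_nonneg _ _)) (phi_nonneg _ _),
    ENNReal.ofReal_add (phi_nonneg _ _) (phi_nonneg _ _)]

theorem continuous_tripleCost (s : ℝ) : Continuous (tripleCost s : E × E × E → ℝ≥0∞) := by
  have h : Continuous fun p : E × E => pairCost s p.1 p.2 :=
    ENNReal.continuous_rpow_const.comp (ENNReal.continuous_ofReal.comp (by fun_prop))
  exact ((h.comp (f := fun p : E × E × E => (p.1, p.2.1)) (by fun_prop)).add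
    (h.comp (f := fun p : E × E × E => (p.1, p.2.2)) (by fun_prop))).add
    (h.comp (f := fun p : E × E × E => (p.2.1, p.2.2)) (by fun_prop))

theorem pairCost_ge {s : ℝ} (hs : 0 < s) {x y : E} (h : ‖x - y‖ ≤ 2) :
    ENNReal.ofReal (2 ^ (-s)) ≤ pairCost s x y := by
  rw [pairCost, ← ENNReal.ofReal_rpow_of_pos two_pos, ENNReal.rpow_neg, ENNReal.rpow_neg,
    ENNReal.inv_le_inv]
  exact ENNReal.rpow_le_rpow (ENNReal.ofReal_le_ofReal h) hs.le

theorem pairCost_gt {s : ℝ} (hs : 0 < s) {x y : E} (h : ‖x - y‖ < 2) :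
    ENNReal.ofReal (2 ^ (-s)) < pairCost s x y := by
  rw [pairCost, ← ENNReal.ofReal_rpow_of_pos two_pos, ENNReal.rpow_neg, ENNReal.rpow_neg,
    ENNReal.inv_lt_inv]
  exact ENNReal.rpow_lt_rpow ((ENNReal.ofReal_lt_ofReal_iff two_pos).2 h) hs

theorem cr_swap23 (s : ℝ) (x y z : E) : cr s x z y = cr s x y z := by
  simp only [cr, ← neg_sub y z, phi_neg]
  ring

/-- The centres of the clusters. -/
def cen (e : Bool → E) : Option (Bool × Bool) → E
  | none => 0
  | some (i, true) => e i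
  | some (i, false) => -e i

/-- The parametrisations of the clusters. -/
def par (Y : Bool × Bool → E → E) : Option (Bool × Bool) → E → E
  | none => id
  | some j => Y j

end basic

variable {E : Type*} [NormedAddCommGroup E] [InnerProductSpace ℝ E]

omit [InnerProductSpace ℝ E] in
theorem norm_cen {e : Bool → E} (he : ∀ i, ‖e i‖ = 1) (j : Bool × Bool) :
    ‖cen e (some j)‖ = 1 := by
  obtain ⟨i, _ | _⟩ := j <;> simp [cen, he]

theorem norm_cen_sub {e : Bool → E} (he : ∀ i, ‖e i‖ = 1) (he' : ⟪e true, e false⟫ = 0)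
    {j j' : Bool × Bool} (h : j.1 ≠ j'.1) : ‖cen e (some j) - cen e (some j')‖ ^ 2 = 2 := by
  have he'' : ⟪e false, e true⟫ = 0 := by rw [real_inner_comm, he']
  rw [norm_sub_sq_real, norm_cen he, norm_cen he]
  obtain ⟨_ | _, _ | _⟩ := j <;> obtain ⟨_ | _, _ | _⟩ := j' <;> simp [cen, he', he''] at h ⊢ <;>
    norm_num

theorem norm_cen_fl {e : Bool → E} (he : ∀ i, ‖e i‖ = 1) (j : Bool × Bool) :
    ‖cen e (some j) - cen e (some (fl j))‖ = 2 := by
  have : ∀ i, ‖e i + e i‖ = 2 := fun i => by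
    rw [← two_smul ℝ, norm_smul, he]; simp
  obtain ⟨i, _ | _⟩ := j
  · rw [norm_sub_rev]; simpa [cen, fl] using this i
  · simpa [cen, fl] using this i

theorem eq_or_fl {j j' : Bool × Bool} (h : j.1 = j'.1) : j' = j ∨ j' = fl j := by
  revert j j'
  decide

theorem one_le_dist_cen {e : Bool → E} (he : ∀ i, ‖e i‖ = 1) (he' : ⟪e true, e false⟫ = 0)
    {k k' : Option (Bool × Bool)} (h : k ≠ k') : 1 ≤ dist (cen e k) (cen e k') := by
  rw [dist_eq_norm]
  rcases k with _ | j <;> rcases k' with _ | j'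
  · exact absurd rfl h
  · rw [show cen e none = 0 from rfl, zero_sub, norm_neg, norm_cen he]
  · rw [show cen e none = 0 from rfl, sub_zero, norm_cen he]
  · by_cases h' : j.1 = j'.1
    · rcases eq_or_fl h' with rfl | rfl
      · exact absurd rfl h
      · rw [norm_cen_fl he]; norm_num
    · have := norm_cen_sub he he' h'
      nlinarith [norm_nonneg (cen e (some j) - cen e (some j'))]

theorem geometry [FiniteDimensional ℝ E] [MeasurableSpace E] [BorelSpace E] {s : ℝ} (hs : 0 < s)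
    {e : Bool → E} (he : ∀ i, ‖e i‖ = 1) (he' : ⟪e true, e false⟫ = 0) :
    ∃ (Y : Bool × Bool → E → E) (ψ : Option (Bool × Bool) → E → ℝ), (∀ j, Measurable (Y j)) ∧
      (∀ k, Measurable (ψ k)) ∧ (∀ j, ContDiffAt ℝ ω (Y j) 0) ∧
      (∀ j, Injective (fderiv ℝ (Y j) 0)) ∧ ∃ L : ℝ, 0 ≤ L ∧ ∀ᶠ r in 𝓝[>] (0 : ℝ),
      (∀ k, ∀ a ∈ Metric.closedBall (0 : E) r, par Y k a ∈ Metric.ball (cen e k) (1 / 2)) ∧
      (∀ k, ∀ a ∈ Metric.closedBall (0 : E) r, ψ k a ≤ 3) ∧
      (∀ k₁ k₂ k₃, ∀ a₁ ∈ Metric.closedBall (0 : E) r, ∀ a₂ ∈ Metric.closedBall (0 : E) r,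
        ∀ a₃ ∈ Metric.closedBall (0 : E) r, ENNReal.ofReal (ψ k₁ a₁) + ENNReal.ofReal (ψ k₂ a₂) +
          ENNReal.ofReal (ψ k₃ a₃) < tripleCost s (par Y k₁ a₁, par Y k₂ a₂, par Y k₃ a₃) ∨
          Contact (Metric.closedBall 0 r) Y (par Y k₁ a₁) (par Y k₂ a₂) (par Y k₃ a₃)) ∧
      (∀ j, ∀ a ∈ Metric.closedBall (0 : E) r, tripleCost s (a, Y j a, Y (fl j) a) =
        ENNReal.ofReal (ψ none a) + ENNReal.ofReal (ψ (some j) a) +
          ENNReal.ofReal (ψ (some (fl j)) a)) ∧
      (∀ j, ∀ a ∈ Metric.closedBall (0 : E) r, ∀ x ∈ Metric.closedBall (0 : E) r,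
        tripleCost s (x, Y j a, Y (fl j) a) ≤ ENNReal.ofReal (ψ none x) +
          ENNReal.ofReal (ψ (some j) a) + ENNReal.ofReal (ψ (some (fl j)) a) +
          ENNReal.ofReal (L * dist a x)) := by
  choose κ₀ hκ₀ using fun i => local_branch hs (he i)
  set κ := max (κ₀ true) (κ₀ false) with hκ
  choose Y₀ Z₀ ℓ hY0 hZ0 hYc hZc hYi hZi r₀ hr₀ hineq using
    fun i => hκ₀ i κ (by cases i <;> simp [hκ])
  choose Y₁ hY₁m hY₁ using fun i => exists_measurable_eventuallyEq (hYc i)
  choose Z₁ hZ₁m hZ₁ using fun i => exists_measurable_eventuallyEq (hZc i)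
  set Y : Bool × Bool → E → E := fun j => bif j.2 then Y₁ j.1 else Z₁ j.1 with hY
  have hYm : ∀ j, Measurable (Y j) := by
    rintro ⟨i, _ | _⟩
    exacts [hZ₁m i, hY₁m i]
  have hYd : ∀ j, ContDiffAt ℝ ω (Y j) 0 := by
    rintro ⟨i, _ | _⟩
    exacts [(hZc i).congr_of_eventuallyEq (hZ₁ i), (hYc i).congr_of_eventuallyEq (hY₁ i)]
  have hYj : ∀ j, Injective (fderiv ℝ (Y j) 0) := by
    rintro ⟨i, _ | _⟩
    · exact (hZ₁ i).fderiv_eq (𝕜 := ℝ) ▸ hZi i
    · exact (hY₁ i).fderiv_eq (𝕜 := ℝ) ▸ hYi i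
  have hpar0 : ∀ k, par Y k 0 = cen e k := by
    rintro (_ | ⟨i, _ | _⟩)
    exacts [rfl, (hZ₁ i).self_of_nhds.trans (hZ0 i), (hY₁ i).self_of_nhds.trans (hY0 i)]
  have hparc : ∀ k, ContDiffAt ℝ ω (par Y k) 0 := by
    rintro (_ | j)
    exacts [contDiffAt_id, hYd j]
  set η : ℝ := 2 ^ (-s) / 2 with hη
  have hη0 : 0 < η := by positivity
  have hη1 : η ≤ 1 / 2 := by
    have : (2 : ℝ) ^ (-s) ≤ 1 := Real.rpow_le_one_of_one_le_of_nonpos (by norm_num) (by linarith)
    linarith
  set u : E → ℝ := fun a => 2 - κ * ‖a‖ ^ 2 / 2 with hu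
  set w : Bool → E → ℝ := fun i z => η + ⟪ℓ i, z + e i⟫ - κ * ‖z + e i‖ ^ 2 / 2 with hw
  have huc : Continuous u := by fun_prop
  have hwc : ∀ i, Continuous (w i) := fun i => by fun_prop
  set ψ : Option (Bool × Bool) → E → ℝ := fun k => match k with
    | none => u
    | some (i, false) => fun a => w i (Y (i, false) a)
    | some (i, true) => fun a => cr s a (Y (i, true) a) (Y (i, false) a) - u a -
        w i (Y (i, false) a) with hψ
  have hne : ∀ {k k'}, k ≠ k' → cen e k - cen e k' ≠ 0 := fun h h0 => by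
    have := one_le_dist_cen he he' h
    rw [dist_eq_norm, h0, norm_zero] at this
    linarith
  have hcr : ∀ j, ContDiffAt ℝ ω (fun p : E × E => cr s p.1 (Y j p.2) (Y (fl j) p.2)) (0, 0) := by
    intro j
    have d1 : ContDiffAt ℝ ω (fun p : E × E => Y j p.2) (0, 0) :=
      ContDiffAt.comp (0, 0) (g := Y j) (hYd j) contDiffAt_snd
    have d2 : ContDiffAt ℝ ω (fun p : E × E => Y (fl j) p.2) (0, 0) :=
      ContDiffAt.comp (0, 0) (g := Y (fl j)) (hYd (fl j)) contDiffAt_snd
    have e1 : Y j 0 = cen e (some j) := hpar0 (some j)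
    have e2 : Y (fl j) 0 = cen e (some (fl j)) := hpar0 (some (fl j))
    refine (ContDiffAt.add ?_ ?_).add ?_
    · refine ContDiffAt.comp (0, 0) (g := phi s) (contDiffAt_phi s ?_) (contDiffAt_fst.sub d1)
      simp only [e1]
      exact hne (k := none) (by simp)
    · refine ContDiffAt.comp (0, 0) (g := phi s) (contDiffAt_phi s ?_) (contDiffAt_fst.sub d2)
      simp only [e2]
      exact hne (k := none) (by simp)
    · refine ContDiffAt.comp (0, 0) (g := phi s) (contDiffAt_phi s ?_) (d1.sub d2)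
      simp only [e1, e2]
      exact hne (by simp [fl, Prod.ext_iff])
  have hψm : ∀ k, Measurable (ψ k) := by
    have hp : Measurable (phi s : E → ℝ) := by unfold phi; fun_prop
    rintro (_ | ⟨i, _ | _⟩)
    · exact huc.measurable
    · exact (hwc i).measurable.comp (hYm _)
    · have h1 := hYm (i, true)
      have h2 := hYm (i, false)
      refine (Measurable.fun_sub ?_ huc.measurable).fun_sub ((hwc i).measurable.comp h2)
      unfold cr
      fun_prop
  have hψc : ∀ k, ContinuousAt (ψ k) 0 := by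
    rintro (_ | ⟨i, _ | _⟩)
    · exact huc.continuousAt
    · exact (hwc i).continuousAt.comp (hYd _).continuousAt
    · refine (ContinuousAt.sub ?_ huc.continuousAt).sub
        ((hwc i).continuousAt.comp (hYd _).continuousAt)
      exact ContinuousAt.comp (f := fun a : E => (a, a)) (x := 0) (hcr (i, true)).continuousAt
        (by fun_prop)
  have hψ0 : ψ none 0 = 2 := by simp [hψ, hu]
  have hψ1 : ∀ j, ψ (some j) 0 = η := by
    rintro ⟨i, _ | _⟩
    · have e2 : Y (i, false) 0 = -e i := hpar0 (some (i, false))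
      simp [hψ, hw, e2]
    · have e1 : Y (i, true) 0 = e i := hpar0 (some (i, true))
      have e2 : Y (i, false) 0 = -e i := hpar0 (some (i, false))
      have e3 : ‖e i + e i‖ = 2 := by simpa [cen, fl] using norm_cen_fl he (i, true)
      simp only [hψ, hw, hu, e1, e2, cr, phi_eq, zero_sub, norm_neg, he, sub_neg_eq_add, e3,
        zero_add, neg_add_cancel, inner_zero_right, norm_zero, Real.one_rpow, hη]
      ring
  have hψs : ∀ j a, ψ (some j) a + ψ (some (fl j)) a = cr s a (Y j a) (Y (fl j) a) - u a := by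
    rintro ⟨i, _ | _⟩ a
    · simp only [hψ, fl, Bool.not_false]
      rw [cr_swap23]
      ring
    · simp only [hψ, fl, Bool.not_true]
      ring
  have E1 : ∀ᶠ a in 𝓝 (0 : E), ∀ k, par Y k a ∈ Metric.ball (cen e k) (1 / 2) :=
    eventually_all.2 fun k => (hparc k).continuousAt.eventually
      (hpar0 k ▸ Metric.ball_mem_nhds _ (by norm_num))
  have E2 : ∀ᶠ a in 𝓝 (0 : E), ∀ k, 0 < ψ k a ∧ ψ k a < 3 := by
    refine eventually_all.2 fun k => ((hψc k).eventually (Ioo_mem_nhds (a := 0) (b := 3) ?_ ?_))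
    · rcases k with _ | j
      · rw [hψ0]; norm_num
      · rw [hψ1]; exact hη0
    · rcases k with _ | j
      · rw [hψ0]; norm_num
      · rw [hψ1]; linarith
  have hdis : ∀ {k k' x y}, k ≠ k' → x ∈ Metric.ball (cen e k) (1 / 2) →
      y ∈ Metric.ball (cen e k') (1 / 2) → x ≠ y := by
    rintro k k' x y h hx hy rfl
    exact disjoint_left.1 (Metric.ball_disjoint_ball
      (le_trans (by norm_num) (one_le_dist_cen he he' h))) hx hy
  have hfl : ∀ j : Bool × Bool, some j ≠ some (fl j) := fun j => by simp [fl, Prod.ext_iff]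
  -- Lipschitz bounds
  have hLip : ∀ j, ∃ K : NNReal, ∃ t ∈ 𝓝 ((0, 0) : E × E), LipschitzOnWith K
      (fun p : E × E => cr s p.1 (Y j p.2) (Y (fl j) p.2) - u p.1) t := fun j =>
    ContDiffAt.exists_lipschitzOnWith (((hcr j).of_le le_top).sub (by
      simp only [hu]
      exact contDiffAt_const.sub ((contDiffAt_const.mul (contDiffAt_fst.norm_sq ℝ)).div_const _)))
  choose K t ht hK using hLip
  have E3 := eventually_closedBall (eventually_all.2 ht : ∀ᶠ p in 𝓝 ((0, 0) : E × E), ∀ j, p ∈ t j)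
  -- the cluster-by-cluster analysis
  set Q : Option (Bool × Bool) → Option (Bool × Bool) → Option (Bool × Bool) → Prop :=
    fun k₁ k₂ k₃ => ∀ᶠ r in 𝓝[>] (0 : ℝ),
      ∀ a₁ ∈ Metric.closedBall (0 : E) r, ∀ a₂ ∈ Metric.closedBall (0 : E) r,
        ∀ a₃ ∈ Metric.closedBall (0 : E) r, ENNReal.ofReal (ψ k₁ a₁) + ENNReal.ofReal (ψ k₂ a₂) +
          ENNReal.ofReal (ψ k₃ a₃) < tripleCost s (par Y k₁ a₁, par Y k₂ a₂, par Y k₃ a₃) ∨
          Contact (Metric.closedBall 0 r) Y (par Y k₁ a₁) (par Y k₂ a₂) (par Y k₃ a₃) with hQ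
  have Q12 : ∀ {k₁ k₂ k₃}, Q k₁ k₂ k₃ → Q k₂ k₁ k₃ := by
    intro k₁ k₂ k₃ h
    filter_upwards [h] with r hr a₁ h1 a₂ h2 a₃ h3
    refine (hr a₂ h2 a₁ h1 a₃ h3).imp (fun h => ?_) Contact.swap12
    rwa [tripleCost_swap12, add_comm (ENNReal.ofReal (ψ k₂ a₁))]
  have Q23 : ∀ {k₁ k₂ k₃}, Q k₁ k₂ k₃ → Q k₁ k₃ k₂ := by
    intro k₁ k₂ k₃ h
    filter_upwards [h] with r hr a₁ h1 a₂ h2 a₃ h3
    refine (hr a₁ h1 a₃ h3 a₂ h2).imp (fun h => ?_) Contact.swap23
    rwa [tripleCost_swap23, add_right_comm]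
  have Qbad : ∀ {k₁ k₂ k₃}, ENNReal.ofReal (ψ k₁ 0) + ENNReal.ofReal (ψ k₂ 0) +
      ENNReal.ofReal (ψ k₃ 0) < tripleCost s (cen e k₁, cen e k₂, cen e k₃) → Q k₁ k₂ k₃ := by
    intro k₁ k₂ k₃ h
    have c1 : ContinuousAt (fun p : E × E × E => ENNReal.ofReal (ψ k₁ p.1) +
        ENNReal.ofReal (ψ k₂ p.2.1) + ENNReal.ofReal (ψ k₃ p.2.2)) (0, 0, 0) :=
      ((ENNReal.continuous_ofReal.continuousAt.comp (ContinuousAt.comp
        (f := fun p : E × E × E => p.1) (hψc k₁) (by fun_prop))).add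
        (ENNReal.continuous_ofReal.continuousAt.comp (ContinuousAt.comp
        (f := fun p : E × E × E => p.2.1) (hψc k₂) (by fun_prop)))).add
        (ENNReal.continuous_ofReal.continuousAt.comp (ContinuousAt.comp
        (f := fun p : E × E × E => p.2.2) (hψc k₃) (by fun_prop)))
    have c2 : ContinuousAt (fun p : E × E × E =>
        tripleCost s (par Y k₁ p.1, par Y k₂ p.2.1, par Y k₃ p.2.2)) (0, 0, 0) :=
      (continuous_tripleCost s).continuousAt.comp
        ((ContinuousAt.comp (f := fun p : E × E × E => p.1) (hparc k₁).continuousAt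
          (by fun_prop)).prodMk ((ContinuousAt.comp (f := fun p : E × E × E => p.2.1)
          (hparc k₂).continuousAt (by fun_prop)).prodMk (ContinuousAt.comp
          (f := fun p : E × E × E => p.2.2) (hparc k₃).continuousAt (by fun_prop))))
    filter_upwards [eventually_closedBall (c1.eventually_lt c2 (by simpa only [hpar0] using h))]
      with r hr a₁ h1 a₂ h2 a₃ h3
    refine Or.inl (hr (a₁, a₂, a₃) ?_)
    rw [← closedBall_prod_same, ← closedBall_prod_same]
    exact ⟨h1, h2, h3⟩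
  have Qtop : ∀ k k', Q k k k' := fun k k' => Qbad (by
    simp [tripleCost, pairCost_self hs])
  have Qgood : ∀ i, Q none (some (i, true)) (some (i, false)) := by
    intro i
    have hz : ∀ᶠ a in 𝓝 (0 : E), Y (i, false) a ∈ Metric.ball (-e i) (r₀ i) :=
      (hYd (i, false)).continuousAt.eventually (by
        have e2 : Y (i, false) 0 = -e i := hpar0 (some (i, false))
        rw [e2]
        exact Metric.ball_mem_nhds _ (hr₀ i))
    filter_upwards [eventually_closedBall (E1.and (E2.and ((hY₁ i).and ((hZ₁ i).and (hz.and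
      (Metric.ball_mem_nhds (0 : E) (hr₀ i)))))))] with r hr a₁ h1 a₂ h2 a₃ h3
    obtain ⟨b1, b2, -, -, -, b3⟩ := hr a₁ h1
    obtain ⟨c1, c2, c3, c4, -, c5⟩ := hr a₂ h2
    obtain ⟨d1, d2, -, -, d3, -⟩ := hr a₃ h3
    have h := hineq i a₂ c5 a₁ b3 _ d3
    rw [← c3, ← c4] at h
    change cr s a₂ (Y (i, true) a₂) (Y (i, false) a₂) + _ - ⟪_, Y (i, false) a₂ + _⟫ +
      κ * ‖Y (i, false) a₂ + _‖ ^ 2 / 2 + (_ + ‖_ - Y (i, false) a₂‖ ^ 2) ≤
      cr s a₁ (Y (i, true) a₂) _ + _ - _ + _ at h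
    by_cases h0 : a₁ = a₂ ∧ Y (i, false) a₃ = Y (i, false) a₂
    · exact Or.inr ⟨(i, true), a₂, h2, Or.inl ⟨h0.1, rfl, h0.2⟩⟩
    · left
      have hpos : 0 < ‖a₁ - a₂‖ ^ 2 + ‖Y (i, false) a₃ - Y (i, false) a₂‖ ^ 2 := by
        rcases not_and_or.1 h0 with h0 | h0
        · have := sub_ne_zero.2 h0
          positivity
        · have := sub_ne_zero.2 h0
          positivity
      rw [tripleCost_eq s (hdis (by simp) (b1 _) (c1 _)) (hdis (by simp) (b1 _) (d1 _))
        (hdis (by simp) (c1 _) (d1 _)),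
        ← ENNReal.ofReal_add (b2 none).1.le (c2 (some (i, true))).1.le, ← ENNReal.ofReal_add
          (add_nonneg (b2 none).1.le (c2 (some (i, true))).1.le) (d2 (some (i, false))).1.le,
        ENNReal.ofReal_lt_ofReal_iff_of_nonneg (add_nonneg (add_nonneg (b2 none).1.le
          (c2 (some (i, true))).1.le) (d2 (some (i, false))).1.le)]
      simp only [hψ, hu, hw, par, id]
      linarith
  have ht2 : ENNReal.ofReal η + ENNReal.ofReal η = ENNReal.ofReal (2 ^ (-s)) := by
    rw [← ENNReal.ofReal_add hη0.le hη0.le, hη, add_halves]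
  have Qmid : ∀ j j', Q none (some j) (some j') := by
    intro j j'
    by_cases h : j.1 = j'.1
    · rcases eq_or_fl h with rfl | rfl
      · exact Q12 (Q23 (Qtop _ _))
      · obtain ⟨i, _ | _⟩ := j
        exacts [Q23 (Qgood i), Qgood i]
    · refine Qbad ?_
      have h1 : ∀ j, pairCost s (cen e none) (cen e (some j)) = 1 := fun j => by
        rw [pairCost, show cen e none = 0 from rfl, zero_sub, norm_neg, norm_cen he]
        simp
      have h2 : ‖cen e (some j) - cen e (some j')‖ < 2 := by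
        have := norm_cen_sub he he' h
        nlinarith [norm_nonneg (cen e (some j) - cen e (some j'))]
      simp only [tripleCost, h1, hψ0, hψ1]
      rw [add_assoc, ht2, one_add_one_eq_two, ENNReal.ofReal_ofNat]
      exact ENNReal.add_lt_add_left (by simp) (pairCost_gt hs h2)
  have Qout : ∀ j j' j'', Q (some j) (some j') (some j'') := by
    intro j j' j''
    refine Qbad ?_
    have h1 : ∀ j j', ENNReal.ofReal η < pairCost s (cen e (some j)) (cen e (some j')) := by
      intro j j'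
      refine lt_of_lt_of_le ?_ (pairCost_ge hs ((norm_sub_le _ _).trans ?_))
      · rw [ENNReal.ofReal_lt_ofReal_iff (by positivity)]
        linarith
      · rw [norm_cen he, norm_cen he]; norm_num
    simp only [tripleCost, hψ1]
    exact ENNReal.add_lt_add (ENNReal.add_lt_add (h1 _ _) (h1 _ _)) (h1 _ _)
  have Qall : ∀ k₁ k₂ k₃, Q k₁ k₂ k₃ := by
    rintro (_ | j₁) (_ | j₂) (_ | j₃)
    exacts [Qtop _ _, Qtop _ _, Q23 (Qtop _ _), Qmid _ _, Q12 (Q23 (Qtop _ _)), Q12 (Qmid _ _),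
      Q23 (Q12 (Qmid _ _)), Qout _ _ _]
  refine ⟨Y, ψ, hYm, hψm, hYd, hYj, ∑ j, (K j : ℝ), Finset.sum_nonneg fun j _ => (K j).2, ?_⟩
  filter_upwards [eventually_closedBall (E1.and E2), E3,
    eventually_all.2 fun k₁ => eventually_all.2 fun k₂ => eventually_all.2 fun k₃ => Qall k₁ k₂ k₃]
    with r h1 h2 h3
  have htc : ∀ j, ∀ a ∈ Metric.closedBall (0 : E) r, ∀ x ∈ Metric.closedBall (0 : E) r,
      tripleCost s (x, Y j a, Y (fl j) a) = ENNReal.ofReal (cr s x (Y j a) (Y (fl j) a)) :=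
    fun j a ha x hx => tripleCost_eq s
      (hdis (by simp) ((h1 x hx).1 none) ((h1 a ha).1 (some j)))
      (hdis (by simp) ((h1 x hx).1 none) ((h1 a ha).1 (some (fl j))))
      (hdis (hfl j) ((h1 a ha).1 (some j)) ((h1 a ha).1 (some (fl j))))
  refine ⟨fun k a ha => (h1 a ha).1 k, fun k a ha => ((h1 a ha).2 k).2.le, h3, fun j a ha => ?_,
    fun j a ha x hx => ?_⟩
  · have b := fun k => ((h1 a ha).2 k).1.le
    rw [htc j a ha a ha, ← ENNReal.ofReal_add (b none) (b (some j)),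
      ← ENNReal.ofReal_add (add_nonneg (b none) (b (some j))) (b (some (fl j))), add_assoc, hψs]
    congr 1
    simp [hψ]
  · rw [htc j a ha x hx]
    have b := (hK j).dist_le_mul (x, a) (h2 _ (by rw [← closedBall_prod_same]; exact ⟨hx, ha⟩) j)
      (a, a) (h2 _ (by rw [← closedBall_prod_same]; exact ⟨ha, ha⟩) j)
    rw [Real.dist_eq, Prod.dist_eq, dist_self, max_eq_left dist_nonneg, dist_comm] at b
    have b' : (K j : ℝ) * dist a x ≤ (∑ j, (K j : ℝ)) * dist a x :=
      mul_le_mul_of_nonneg_right (Finset.single_le_sum (f := fun j => (K j : ℝ))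
        (fun j _ => (K j).2) (Finset.mem_univ j)) dist_nonneg
    refine le_trans (ENNReal.ofReal_le_ofReal (?_ : _ ≤ ψ none x + ψ (some j) a +
      ψ (some (fl j)) a + (∑ j, (K j : ℝ)) * dist a x)) ?_
    · have b1 := (abs_le.1 b).2
      have b2 := hψs j a
      have b3 : ψ none x = u x := rfl
      simp only at b1
      linarith
    · exact ENNReal.ofReal_add_le.trans (add_le_add (ENNReal.ofReal_add_le.trans
        (add_le_add ENNReal.ofReal_add_le le_rfl)) le_rfl)

end Crest.Agent.MM
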