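import Mathlib
import Crest.Agent.OT.Discretize

/-!
# Probability integral transform and splitting of atomless measures by short moves
-/

set_option autoImplicit false

open MeasureTheory Set Filter Topology ProbabilityTheory
open scoped ENNReal

namespace Crest.Agent.MM

theorem continuous_cdf (ν : Measure ℝ) [IsProbabilityMeasure ν] (h : ∀ a, ν {a} = 0) :
    Continuous (cdf ν) := by
  rw [continuous_iff_continuousAt]
  intro a
  rw [continuousAt_iff_continuous_left'_right']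
  refine ⟨?_, ((cdf ν).right_continuous a).mono Ioi_subset_Ici_self⟩
  rw [(monotone_cdf ν).continuousWithinAt_Iio_iff_leftLim_eq]
  have h1 := (cdf ν).measure_singleton a
  rw [measure_cdf, h a, eq_comm, ENNReal.ofReal_eq_zero] at h1
  exact le_antisymm ((monotone_cdf ν).leftLim_le le_rfl) (by linarith)

/-- Probability integral transform. -/
theorem map_cdf (ν : Measure ℝ) [IsProbabilityMeasure ν] (h : ∀ a, ν {a} = 0) :
    ν.map (cdf ν) = volume.restrict (Icc 0 1) := by
  have hc := continuous_cdf ν h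
  have hm : Measurable (cdf ν) := hc.measurable
  have key : ∀ t, 0 < t → t < 1 → ν (cdf ν ⁻¹' Iic t) = ENNReal.ofReal t := by
    intro t h0 h1
    obtain ⟨a, ha⟩ := ((tendsto_cdf_atBot ν).eventually (gt_mem_nhds h0)).exists
    obtain ⟨b, hb⟩ := eventually_atTop.1 ((tendsto_cdf_atTop ν).eventually (lt_mem_nhds h1))
    obtain ⟨c, hc'⟩ : t ∈ range (cdf ν) :=
      intermediate_value_univ a b hc ⟨ha.le, (hb b le_rfl).le⟩
    have hcl : IsClosed (cdf ν ⁻¹' Iic t) := isClosed_Iic.preimage hc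
    have hbd : BddAbove (cdf ν ⁻¹' Iic t) := ⟨b, fun x hx => by
      by_contra hlt
      exact absurd (hb x (not_le.1 hlt).le) (not_lt.2 hx)⟩
    have hne : (cdf ν ⁻¹' Iic t).Nonempty := ⟨c, hc'.le⟩
    have hmem := hcl.csSup_mem hne hbd
    have e : cdf ν ⁻¹' Iic t = Iic (sSup (cdf ν ⁻¹' Iic t)) := by
      ext x
      exact ⟨fun hx => le_csSup hbd hx, fun hx => (monotone_cdf ν hx).trans hmem⟩
    rw [e, ← ofReal_cdf]
    congr 1
    exact le_antisymm hmem (hc'.ge.trans (monotone_cdf ν (le_csSup hbd hc'.le)))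
  have : IsProbabilityMeasure (ν.map (cdf ν)) := Measure.isProbabilityMeasure_map hm.aemeasurable
  refine Measure.ext_of_Iic _ _ fun t => ?_
  rw [Measure.map_apply hm measurableSet_Iic, Measure.restrict_apply measurableSet_Iic]
  rcases le_or_gt t 0 with h0 | h0
  · have e1 : volume (Iic t ∩ Icc (0 : ℝ) 1) = 0 :=
      measure_mono_null (t := {0}) (fun x hx => le_antisymm (hx.1.trans h0) hx.2.1) (by simp)
    rw [e1]
    refine le_antisymm (ENNReal.le_of_forall_pos_le_add fun ε hε _ => ?_) bot_le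
    have h2 : (0 : ℝ) < min ε (1 / 2) := lt_min hε (by norm_num)
    calc ν (cdf ν ⁻¹' Iic t) ≤ ν (cdf ν ⁻¹' Iic (min ε (1 / 2))) :=
          measure_mono (preimage_mono (Iic_subset_Iic.2 (h0.trans h2.le)))
      _ = ENNReal.ofReal (min ε (1 / 2)) :=
          key _ h2 (lt_of_le_of_lt (min_le_right _ _) (by norm_num))
      _ ≤ ENNReal.ofReal ε := ENNReal.ofReal_le_ofReal (min_le_left _ _)
      _ = 0 + ε := by simp
  rcases lt_or_ge t 1 with h1 | h1
  · rw [key t h0 h1]
    have : Iic t ∩ Icc (0 : ℝ) 1 = Icc 0 t := by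
      ext x; simp only [mem_inter_iff, mem_Iic, mem_Icc]
      exact ⟨fun h => ⟨h.2.1, h.1⟩, fun h => ⟨h.2, h.1, h.2.trans h1.le⟩⟩
    rw [this, Real.volume_Icc, sub_zero]
  · have e1 : cdf ν ⁻¹' Iic t = univ := eq_univ_of_forall fun x => (cdf_le_one ν x).trans h1
    have e2 : Iic t ∩ Icc (0 : ℝ) 1 = Icc 0 1 := inter_eq_right.2 fun x hx => hx.2.trans h1
    rw [e1, e2, measure_univ, Real.volume_Icc]
    simp

theorem map_double (c : ℝ) :
    (volume.restrict (Icc (c / 2) ((c + 1) / 2))).map (fun u : ℝ => 2 * u - c) =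
      (2⁻¹ : ℝ≥0∞) • volume.restrict (Icc (0 : ℝ) 1) := by
  have hm : Measurable fun u : ℝ => 2 * u - c := by fun_prop
  have e : Icc (c / 2) ((c + 1) / 2) = (fun u : ℝ => 2 * u - c) ⁻¹' Icc 0 1 := by
    ext u; simp only [mem_Icc, mem_preimage]
    constructor <;> rintro ⟨h1, h2⟩ <;> constructor <;> linarith
  rw [e, ← Measure.restrict_map hm measurableSet_Icc]
  have : (volume : Measure ℝ).map (fun u : ℝ => 2 * u - c) = (2⁻¹ : ℝ≥0∞) • volume := by
    have h : (fun u : ℝ => 2 * u - c) = (fun u => u + -c) ∘ fun u => 2 * u := by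
      ext u; simp [sub_eq_add_neg]
    rw [h, ← Measure.map_map (by fun_prop) (by fun_prop), Real.map_volume_mul_left two_ne_zero,
      Measure.map_smul, map_add_right_eq_self]
    congr 1
    rw [abs_of_pos (by norm_num), ENNReal.ofReal_inv_of_pos (by norm_num)]
    simp
  rw [this, Measure.restrict_smul]

theorem split_prob {X : Type*} [MeasurableSpace X] [StandardBorelSpace X] [Nonempty X]
    (m : Measure X) [IsProbabilityMeasure m] {g : X → ℝ} (hg : Measurable g)
    (h : ∀ a, m (g ⁻¹' {a}) = 0) :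
    ∃ R : X → X, Measurable R ∧ ∃ W : Set X, MeasurableSet W ∧
      (m.restrict W).map R = (2⁻¹ : ℝ≥0∞) • m ∧ (m.restrict Wᶜ).map R = (2⁻¹ : ℝ≥0∞) • m := by
  classical
  have : IsProbabilityMeasure (m.map g) := Measure.isProbabilityMeasure_map hg.aemeasurable
  have hat : ∀ a, m.map g {a} = 0 := fun a => by
    rw [Measure.map_apply hg (measurableSet_singleton a), h a]
  have hFm : Measurable (cdf (m.map g)) := (continuous_cdf _ hat).measurable
  set G : X → ℝ := cdf (m.map g) ∘ g with hG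
  have hGm : Measurable G := hFm.comp hg
  have hGU : m.map G = volume.restrict (Icc 0 1) := by
    rw [hG, ← Measure.map_map hFm hg, map_cdf _ hat]
  obtain ⟨f, hf, hfm⟩ := m.exists_measurable_map_eq
  set f' : ℝ → X := f ∘ projIcc 0 1 zero_le_one with hf'
  have hf'm : Measurable f' := hf.comp continuous_projIcc.measurable
  have hf'U : (volume.restrict (Icc (0 : ℝ) 1)).map f' = m := by
    rw [← unitInterval.measurePreserving_coe.map_eq, Measure.map_map hf'm measurable_subtype_coe,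
      ← hfm]
    congr 1
    ext u
    simp [hf']
  set W := G ⁻¹' Iic (1 / 2) with hW
  have hWm : MeasurableSet W := hGm measurableSet_Iic
  have key : ∀ (c : ℝ) (A : Set ℝ), MeasurableSet A →
      (A ∩ Icc 0 1 : Set ℝ) =ᵐ[volume] Icc (c / 2) ((c + 1) / 2) →
      (m.restrict (G ⁻¹' A)).map (fun x => f' (2 * G x - c)) = (2⁻¹ : ℝ≥0∞) • m := by
    intro c A hA hAe
    have hm : Measurable fun u : ℝ => 2 * u - c := by fun_prop
    have e : (fun x => f' (2 * G x - c)) = f' ∘ (fun u => 2 * u - c) ∘ G := rfl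
    rw [e, ← Measure.map_map hf'm (hm.comp hGm), ← Measure.map_map hm hGm,
      ← Measure.restrict_map hGm hA, hGU, Measure.restrict_restrict hA,
      Measure.restrict_congr_set hAe, map_double, Measure.map_smul, hf'U]
  refine ⟨W.piecewise (fun x => f' (2 * G x - 0)) (fun x => f' (2 * G x - 1)),
    Measurable.piecewise hWm (by fun_prop) (by fun_prop), W, hWm, ?_, ?_⟩
  · refine (Measure.map_congr ?_).trans (key 0 (Iic (1 / 2)) measurableSet_Iic ?_)
    · exact (ae_restrict_mem hWm).mono fun x hx => piecewise_eq_of_mem _ _ _ hx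
    · have : Iic (1 / 2) ∩ Icc (0 : ℝ) 1 = Icc (0 / 2) ((0 + 1) / 2) := by
        ext x; simp only [mem_inter_iff, mem_Iic, mem_Icc]
        constructor
        · rintro ⟨h1, h2, -⟩; constructor <;> linarith
        · rintro ⟨h1, h2⟩; refine ⟨by linarith, by linarith, by linarith⟩
      rw [this]
  · refine (Measure.map_congr ?_).trans (key 1 (Iic (1 / 2))ᶜ measurableSet_Iic.compl ?_)
    · exact (ae_restrict_mem hWm.compl).mono fun x hx => piecewise_eq_of_notMem _ _ _ hx
    · have : (Iic (1 / 2))ᶜ ∩ Icc (0 : ℝ) 1 = Ioc (1 / 2) ((1 + 1) / 2) := by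
        ext x; simp only [mem_inter_iff, mem_compl_iff, mem_Iic, mem_Icc, mem_Ioc, not_le]
        constructor
        · rintro ⟨h1, h2, h3⟩; constructor <;> linarith
        · rintro ⟨h1, h2⟩; refine ⟨by linarith, by linarith, by linarith⟩
      rw [this]
      exact Ioc_ae_eq_Icc

theorem split_finite {X : Type*} [MeasurableSpace X] [StandardBorelSpace X] [Nonempty X]
    (m : Measure X) [IsFiniteMeasure m] {g : X → ℝ} (hg : Measurable g)
    (h : ∀ a, m (g ⁻¹' {a}) = 0) :
    ∃ R : X → X, Measurable R ∧ ∃ W : Set X, MeasurableSet W ∧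
      (m.restrict W).map R = (2⁻¹ : ℝ≥0∞) • m ∧ (m.restrict Wᶜ).map R = (2⁻¹ : ℝ≥0∞) • m := by
  rcases eq_or_ne m 0 with rfl | h0
  · exact ⟨id, measurable_id, univ, MeasurableSet.univ, by simp, by simp⟩
  have : NeZero m := ⟨h0⟩
  obtain ⟨R, hR, W, hW, h1, h2⟩ := split_prob ((m univ)⁻¹ • m) hg (fun a => by simp [h a])
  have e : m = m univ • ((m univ)⁻¹ • m) := by
    rw [smul_smul, ENNReal.mul_inv_cancel (by simpa using h0) (measure_ne_top _ _), one_smul]
  refine ⟨R, hR, W, hW, ?_, ?_⟩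
  · rw [e, Measure.restrict_smul, Measure.map_smul, h1, smul_comm]
  · rw [e, Measure.restrict_smul, Measure.map_smul, h2, smul_comm]

theorem split_short {X : Type*} [PseudoMetricSpace X] [MeasurableSpace X] [BorelSpace X]
    [StandardBorelSpace X] [Nonempty X] (m : Measure X) [IsFiniteMeasure m] {K : Set X}
    (hK : IsCompact K) (hmK : ∀ᵐ x ∂m, x ∈ K) {g : X → ℝ} (hg : Measurable g)
    (h : ∀ a, m (g ⁻¹' {a}) = 0) {δ : ℝ} (hδ : 0 < δ) :
    ∃ R : X → X, Measurable R ∧ ∃ W : Set X, MeasurableSet W ∧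
      (m.restrict W).map R = (2⁻¹ : ℝ≥0∞) • m ∧ (m.restrict Wᶜ).map R = (2⁻¹ : ℝ≥0∞) • m ∧
      ∀ᵐ x ∂m, dist (R x) x ≤ δ := by
  classical
  rcases K.eq_empty_or_nonempty with rfl | hKn
  · have : m = 0 := by simpa using hmK
    subst this
    exact ⟨id, measurable_id, univ, MeasurableSet.univ, by simp, by simp, by simp⟩
  obtain ⟨t, -, htf, ht⟩ := hK.finite_cover_balls (half_pos hδ)
  have : Fintype t := htf.fintype
  have hcov : ∀ x ∈ K, ∃ c : t, x ∈ Metric.ball (c : X) (δ / 2) := fun x hx => by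
    have := ht hx
    simp only [mem_iUnion] at this
    obtain ⟨c, hc, h⟩ := this
    exact ⟨⟨c, hc⟩, h⟩
  have : Nonempty t := by
    obtain ⟨x, hx⟩ := hKn
    obtain ⟨c, -⟩ := hcov x hx
    exact ⟨c⟩
  obtain ⟨ι, hιm, hι⟩ := OT.exists_measurable_selection
    (fun c : t => Metric.ball (c : X) (δ / 2)) fun c => Metric.isOpen_ball.measurableSet
  choose R hR W hW h1 h2 using fun c : t => split_finite (m.restrict (ι ⁻¹' {c})) hg
    (fun a => le_antisymm ((Measure.restrict_le_self _).trans (h a).le) bot_le)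
  let _ : MeasurableSpace t := ⊤
  have hι' : Measurable ι := measurable_to_countable' hιm
  have hRm : Measurable fun x => R (ι x) x :=
    (measurable_from_prod_countable_left (f := fun p : X × t => R p.2 p.1) fun c => hR c).comp
      (measurable_id.prodMk hι')
  have hsum : ∀ μ : Measure X, μ = ∑ c, μ.restrict (ι ⁻¹' {c}) := fun μ => by
    rw [← Measure.sum_fintype, ← Measure.restrict_iUnion
      (fun a b hab => Disjoint.preimage _ (disjoint_singleton.2 hab)) hιm]
    rw [← preimage_iUnion, iUnion_singleton_eq_range, range_id', preimage_univ,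
      Measure.restrict_univ]
  have key : ∀ V : t → Set X, (∀ c, MeasurableSet (V c)) →
      (∀ c, ((m.restrict (ι ⁻¹' {c})).restrict (V c)).map (R c) =
        (2⁻¹ : ℝ≥0∞) • m.restrict (ι ⁻¹' {c})) →
      MeasurableSet {x | x ∈ V (ι x)} ∧
        (m.restrict {x | x ∈ V (ι x)}).map (fun x => R (ι x) x) = (2⁻¹ : ℝ≥0∞) • m := by
    intro V hV hV'
    have hm : MeasurableSet {x | x ∈ V (ι x)} := by
      have : {x | x ∈ V (ι x)} = ⋃ c, ι ⁻¹' {c} ∩ V c := by
        ext x
        simp only [mem_ofPred_eq, mem_iUnion, mem_inter_iff, mem_preimage, mem_singleton_iff]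
        exact ⟨fun h => ⟨_, rfl, h⟩, fun ⟨c, h1, h2⟩ => h1 ▸ h2⟩
      rw [this]
      exact MeasurableSet.iUnion fun c => (hιm c).inter (hV c)
    refine ⟨hm, ?_⟩
    rw [hsum (m.restrict _), Measure.map_finset_sum' hRm.aemeasurable]
    conv_rhs => rw [hsum m, Finset.smul_sum]
    refine Finset.sum_congr rfl fun c _ => ?_
    rw [← hV' c, Measure.restrict_restrict (hιm c), Measure.restrict_restrict (hV c)]
    have e : ι ⁻¹' {c} ∩ {x | x ∈ V (ι x)} = V c ∩ ι ⁻¹' {c} := by
      ext x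
      simp only [mem_inter_iff, mem_preimage, mem_singleton_iff, mem_ofPred_eq]
      exact ⟨fun ⟨h1, h2⟩ => ⟨h1 ▸ h2, h1⟩, fun ⟨h1, h2⟩ => ⟨h2, h2 ▸ h1⟩⟩
    rw [e]
    refine Measure.map_congr ((ae_restrict_mem ((hV c).inter (hιm c))).mono fun x hx => ?_)
    simp only [show ι x = c from hx.2]
  obtain ⟨k1, k2⟩ := key W hW h1
  obtain ⟨-, k3⟩ := key (fun c => (W c)ᶜ) (fun c => (hW c).compl) h2
  refine ⟨_, hRm, _, k1, k2, k3, ?_⟩
  have hin : ∀ c, ∀ᵐ x ∂(m.restrict (ι ⁻¹' {c})), R c x ∈ ι ⁻¹' {c} ∩ K := by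
    intro c
    have h0 : ∀ᵐ x ∂(m.restrict (ι ⁻¹' {c})), x ∈ ι ⁻¹' {c} ∩ K :=
      (ae_restrict_mem (hιm c)).and (ae_restrict_of_ae hmK)
    have h3 : ∀ᵐ x ∂((2⁻¹ : ℝ≥0∞) • m.restrict (ι ⁻¹' {c})), x ∈ ι ⁻¹' {c} ∩ K :=
      Measure.ae_smul_measure h0 _
    have a1 := ae_of_ae_map (hR c).aemeasurable (h1 c ▸ h3)
    have a2 := ae_of_ae_map (hR c).aemeasurable (h2 c ▸ h3)
    exact ae_of_ae_restrict_of_ae_restrict_compl _ a1 a2
  have hin' : ∀ᵐ x ∂m, ∀ c, x ∈ ι ⁻¹' {c} → R c x ∈ ι ⁻¹' {c} ∩ K :=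
    ae_all_iff.2 fun c => (ae_restrict_iff' (hιm c)).1 (hin c)
  filter_upwards [hin', hmK] with x hx hxK
  obtain ⟨e1, e2⟩ := hx (ι x) rfl
  have b1 := hι x (hcov x hxK)
  have b2 := hι _ (hcov _ e2)
  rw [show ι (R (ι x) x) = ι x from e1] at b2
  have := dist_triangle_right (R (ι x) x) x (ι x : X)
  rw [Metric.mem_ball] at b1 b2
  linarith

end Crest.Agent.MM
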